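import Vale.Agent.H12.LT2Ef

/-!
Row E of P371: existence of a Riccati path (Brouwer shooting argument).
-/

open MeasureTheory Matrix Set
open scoped ENNReal ComplexOrder

namespace Vale.LT2.RowE

variable {N : ℕ}

/-- If the shooting map points in the direction `-x`, then `K` has trivial kernel and the
negative part vanishes. -/
theorem ker_trivial {L κ τ : ℝ} (hLL : -L ≤ L) (hτ : 0 ≤ τ) {Q : Mat N → ℝ → Mat N} {x : FM N}
    {α : ℝ → FM N} (hx : (toM x).IsHermitian)
    (h : Sol L κ (pp (toM x)) (Q (pp (toM x))) α)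
    (hQc : ContinuousOn (fun t => ofM (Q (pp (toM x)) t)) (Icc (-L) L))
    (hker : ∀ w : Fin N → ℂ, w ≠ 0 → (pp (toM x)).mulVec w = 0 →
      0 < ∫ t in (-L)..L, (star w ⬝ᵥ (Q (pp (toM x)) t).mulVec w).re)
    (hF : α L - ofM (nn (toM x)) = -(τ • x)) :
    (pp (toM x)).PosDef ∧ nn (toM x) = 0 := by
  have hKp := pp_psd (toM x)
  have hend : toM (α L) = (1 + τ) • nn (toM x) - τ • pp (toM x) := by
    have h1 : α L = ofM (nn (toM x)) + -(τ • x) := by rw [← hF]; abel
    have h2 : toM (α L) = nn (toM x) - τ • toM x := by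
      rw [h1, map_add, toM_ofM, map_neg, map_smul, sub_eq_add_neg]
    rw [h2]
    have h3 := pp_sub_nn (toM x) hx
    calc nn (toM x) - τ • toM x = nn (toM x) - τ • (pp (toM x) - nn (toM x)) := by rw [h3]
      _ = _ := by rw [smul_sub, add_smul, one_smul]; abel
  have hk0 : ∀ w : Fin N → ℂ, (pp (toM x)).mulVec w = 0 → w = 0 := by
    intro w hw
    by_contra hw0
    have h1 := h.ker_bound hLL hKp hQc w hw
    have h2 := hker w hw0 hw
    rw [hend, qf_sub, qf_smul, qf_smul] at h1
    have h3 : qf w (pp (toM x)) = 0 := by unfold qf; rw [hw]; simp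
    rw [h3] at h1
    have h4 := qf_psd w (nn_psd (toM x))
    have h5 : (∫ t in (-L)..L, qf w (Q (pp (toM x)) t))
        = ∫ t in (-L)..L, (star w ⬝ᵥ (Q (pp (toM x)) t).mulVec w).re := rfl
    rw [h5] at h1
    nlinarith [mul_nonneg hτ h4]
  have hdet : (pp (toM x)).det ≠ 0 := by
    intro h0
    obtain ⟨v, hv, hv2⟩ := Matrix.exists_mulVec_eq_zero_iff.mpr h0
    exact hv (hk0 v hv2)
  refine ⟨?_, ?_⟩
  · rw [hKp.posDef_iff_isUnit, Matrix.isUnit_iff_isUnit_det]
    exact isUnit_iff_ne_zero.mpr hdet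
  · rw [Matrix.ext_iff_mulVec]
    intro v
    rw [Matrix.zero_mulVec]
    refine hk0 _ ?_
    rw [Matrix.mulVec_mulVec, pp_mul_nn _ hx, Matrix.zero_mulVec]

end Vale.LT2.RowE

namespace Vale.LT2

open RowE

variable {N : ℕ}

theorem exists_riccati (L : ℝ) (hL : 0 < L) (Q : Mat N → ℝ → Mat N)
    (hQc : ContinuousOn (fun z : Mat N × ℝ => Q z.1 z.2) ({K | K.PosSemidef} ×ˢ univ))
    (hQ : ∀ K, K.PosSemidef → ∀ x, (Q K x).PosSemidef)
    (C : ℝ) (hC : ∀ K, K.PosSemidef → ∀ x i j, ‖Q K x i j‖ ≤ C)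
    (hker : ∀ K, K.PosSemidef → ∀ w : Fin N → ℂ, w ≠ 0 → K.mulVec w = 0 →
      0 < ∫ x in (-L)..L, (star w ⬝ᵥ (Q K x).mulVec w).re) :
    ∃ (K : Mat N) (M : ℝ → Mat N), RicPath L K (Q K) M := by
  have hLL : -L ≤ L := by linarith
  set C2 : ℝ := N * (N * |C|) with hC2
  have hC2n : 0 ≤ C2 := by positivity
  set R : ℝ := N * (L * C2) + 1 with hR
  have hR0 : 0 < R := by positivity
  set κ : ℝ := 2 * R with hκ
  -- continuity of `Q K` for fixed `K`
  have hQK : ∀ K : Mat N, K.PosSemidef → Continuous (fun t => ofM (Q K t)) := by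
    intro K hK
    have h1 : ContinuousOn (fun t : ℝ => Q K t) univ :=
      hQc.comp (f := fun t : ℝ => (K, t)) (continuousOn_const.prodMk continuousOn_id)
        (fun t _ => ⟨hK, mem_univ _⟩)
    exact continuous_ofM.comp (continuousOn_univ.mp h1)
  -- solutions
  have hsol : ∀ x : FM N, ∃ α : ℝ → FM N, Sol L κ (pp (toM x)) (Q (pp (toM x))) α := by
    intro x
    exact exists_sol L hL κ _ _ (hQK _ (pp_psd _)).continuousOn (N * |C|)
      (fun t _ => norm_entries _ C (hC _ (pp_psd _) t))
  choose α hα using hsol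
  -- the shooting map
  set F : FM N → FM N := fun x => α x L - ofM (nn (toM x)) with hF
  have hFc : ContinuousOn F (Bs N R) := (shoot_cont L hL Q hQc κ R α hα).sub (cont_nn R)
  have hFh : ∀ x ∈ Bs N R, (toM (F x)).IsHermitian := by
    intro x _
    rw [hF]
    simp only [map_sub, toM_ofM]
    exact ((hα x).herm (pp_psd _).1 (fun t => (hQ _ (pp_psd _) t).1) L
      ⟨hLL, le_rfl⟩).sub (nn_psd _).1
  -- existence of a good point
  have hgood : ∃ x ∈ Bs N R, F x = 0 := by
    by_contra hno
    push Not at hno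
    have hpos : ∀ x ∈ Bs N R, 0 < ‖F x‖ := fun x hx => norm_pos_iff.mpr (hno x hx)
    set f : FM N → FM N := fun x => (-(R / ‖F x‖)) • F x with hf
    have hfc : ContinuousOn f (Bs N R) := by
      have h1 : ContinuousOn (fun x => -(R / ‖F x‖)) (Bs N R) :=
        (continuousOn_const.div hFc.norm (fun x hx => (hpos x hx).ne')).neg
      exact h1.smul hFc
    have hfn : ∀ x ∈ Bs N R, ‖f x‖ = R := by
      intro x hx
      rw [hf]
      simp only
      rw [norm_smul, norm_neg, Real.norm_eq_abs, abs_of_pos (div_pos hR0 (hpos x hx))]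
      field_simp [(hpos x hx).ne']
    have hfm : MapsTo f (Bs N R) (Bs N R) := by
      intro x hx
      refine ⟨?_, (hfn x hx).le⟩
      rw [hf]
      simp only [map_smul]
      unfold Matrix.IsHermitian
      rw [Matrix.conjTranspose_smul, (hFh x hx).eq]
      simp
    have hne : (Bs N R).Nonempty := by
      refine ⟨0, ?_, ?_⟩
      · rw [map_zero]; exact Matrix.isHermitian_zero
      · rw [norm_zero]; exact hR0.le
    obtain ⟨x, hx, hfx⟩ := Vale.Agent.H26.Brouwer.exists_fixed_convex (Bs_compact R)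
      (Bs_convex R) hne hfc hfm
    have hxn : ‖x‖ = R := by
      have := hfn x hx
      rwa [hfx] at this
    set τ : ℝ := ‖F x‖ / R with hτ
    have hτ0 : 0 ≤ τ := by positivity
    have hFx : F x = -(τ • x) := by
      have h1 : x = (-(R / ‖F x‖)) • F x := hfx.symm
      have h2 : τ • x = -F x := by
        conv_lhs => rw [h1]
        rw [smul_smul]
        have h3 : τ * -(R / ‖F x‖) = -1 := by
          rw [hτ]
          have := (hpos x hx).ne'
          field_simp
        rw [h3, neg_one_smul]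
      rw [h2, neg_neg]
    obtain ⟨hKd, hn0⟩ := ker_trivial hLL hτ0 hx.1 (hα x) (hQK _ (pp_psd _)).continuousOn
      (fun w hw0 hw => hker _ (pp_psd _) w hw0 hw) hFx
    set K := pp (toM x) with hK
    have hKp := hKd.posSemidef
    have hKx : toM x = K := by
      have := pp_sub_nn (toM x) hx.1
      rw [hn0, sub_zero] at this
      exact this.symm
    have hKn : ‖ofM K‖ = R := by rw [← hKx, ofM_toM, hxn]
    have hend : α x L = -(τ • x) := by
      have : F x = α x L - ofM (nn (toM x)) := rfl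
      rw [hn0, ofM_zero, sub_zero] at this
      rw [← this, hFx]
    rcases isEmpty_or_nonempty (Fin N) with hE | hE
    · have : x = 0 := by
        ext p; exact (hE.false p.1).elim
      rw [this, norm_zero] at hxn
      linarith
    · obtain ⟨k, w, hk, hw1, hw, hkK⟩ := exists_top K hKp
      have hkR : k ≤ R := by rw [← hKn]; exact top_le_norm hk hw1 hw
      have h1 := (hα x).top_bound hLL hKp (fun t => hQ _ hKp t) k hk hkK (by rw [hκ]; linarith) w hw
        C2 (fun t _ => qf_entries _ C (hC _ hKp t) w hw1)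
      rw [hend, map_neg, map_smul, hKx, hw1] at h1
      have h2 : qf w (-(τ • K)) ≤ 0 := by
        have h3 := qf_sub w 0 (τ • K)
        have h4 : qf w (0 : Mat N) = 0 := by unfold qf; simp
        rw [zero_sub, qf_smul, h4] at h3
        rw [h3]
        have := mul_nonneg hτ0 (qf_psd w hKp)
        linarith
      have h5 : k ≤ L * C2 := by linarith
      have h6 := norm_le_top hk hKp hkK
      rw [hKn] at h6
      have h7 : (N : ℝ) * k ≤ N * (L * C2) := mul_le_mul_of_nonneg_left h5 (Nat.cast_nonneg N)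
      linarith
  obtain ⟨x, hx, hFx⟩ := hgood
  have hFx' : F x = -((0 : ℝ) • x) := by rw [hFx, zero_smul, neg_zero]
  obtain ⟨hKd, hn0⟩ := ker_trivial hLL le_rfl hx.1 (hα x) (hQK _ (pp_psd _)).continuousOn
    (fun w hw0 hw => hker _ (pp_psd _) w hw0 hw) hFx'
  have hKp := hKd.posSemidef
  have hKx : toM x = pp (toM x) := by
    have := pp_sub_nn (toM x) hx.1
    rw [hn0, sub_zero] at this
    exact this.symm
  have hend : α x L = 0 := by
    have : F x = α x L - ofM (nn (toM x)) := rfl
    rw [hn0, ofM_zero, sub_zero] at this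
    rw [← this, hFx]
  obtain ⟨k, hk, hkK, hkn⟩ := exists_k (pp (toM x)) hKp
  have hkR : k ≤ R := by
    refine hkn.trans ?_
    rw [← hKx, ofM_toM]
    exact hx.2
  exact ⟨pp (toM x), _, (hα x).ricPath hLL hKd (fun t => hQ _ hKp t) k hk hkK
    (by rw [hκ]; linarith) hend⟩

end Vale.LT2
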