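import Vale.Agent.H1.LT2.Defs

/-!
Row E of P371 (existence of the Riccati path), part a: positive and negative parts of Hermitian
matrices and the Frobenius norm.
-/

open MeasureTheory Matrix Set
open scoped ENNReal ComplexOrder MatrixOrder

namespace Vale.LT2.RowE

variable {N : ℕ}

/-- positive part -/
noncomputable def pp (A : Mat N) : Mat N := cfc (fun t : ℝ => max t 0) A
/-- negative part -/
noncomputable def nn (A : Mat N) : Mat N := cfc (fun t : ℝ => max (-t) 0) A

theorem cont_max0 : Continuous (fun t : ℝ => max t 0) := by fun_prop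
theorem cont_maxn : Continuous (fun t : ℝ => max (-t) 0) := by fun_prop

theorem cfc_psd (f : ℝ → ℝ) (A : Mat N) (hf : ∀ x ∈ spectrum ℝ A, 0 ≤ f x) :
    (cfc f A).PosSemidef := by
  have h : 0 ≤ cfc f A := cfc_nonneg hf
  exact Matrix.nonneg_iff_posSemidef.mp h

theorem pp_psd (A : Mat N) : (pp A).PosSemidef := cfc_psd _ _ (fun _ _ => le_max_right _ _)
theorem nn_psd (A : Mat N) : (nn A).PosSemidef := cfc_psd _ _ (fun _ _ => le_max_right _ _)

theorem pp_sub_nn (A : Mat N) (hA : A.IsHermitian) : pp A - nn A = A := by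
  unfold pp nn
  have hA' : IsSelfAdjoint A := hA
  rw [← cfc_sub (fun t : ℝ => max t 0) (fun t : ℝ => max (-t) 0) A]
  conv_rhs => rw [← cfc_id' ℝ A]
  congr 1
  ext t
  rcases le_total t 0 with h | h
  · rw [max_eq_right h, max_eq_left (by linarith)]; ring
  · rw [max_eq_left h, max_eq_right (by linarith)]; ring

theorem pp_mul_nn (A : Mat N) (hA : A.IsHermitian) : pp A * nn A = 0 := by
  unfold pp nn
  have hA' : IsSelfAdjoint A := hA
  rw [← cfc_mul (fun t : ℝ => max t 0) (fun t : ℝ => max (-t) 0) A]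
  have : (fun t : ℝ => max t 0 * max (-t) 0) = fun _ => (0 : ℝ) := by
    ext t
    rcases le_total t 0 with h | h
    · rw [max_eq_right h]; ring
    · rw [max_eq_right (a := -t) (by linarith)]; ring
  rw [this, cfc_const_zero]

theorem nn_mul_pp (A : Mat N) (hA : A.IsHermitian) : nn A * pp A = 0 := by
  have h := congrArg Matrix.conjTranspose (pp_mul_nn A hA)
  rwa [Matrix.conjTranspose_mul, (pp_psd A).1.eq, (nn_psd A).1.eq, Matrix.conjTranspose_zero] at h

theorem pp_eq_self (A : Mat N) (hA : A.PosSemidef) : pp A = A := by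
  unfold pp
  have hA' : IsSelfAdjoint A := hA.1
  have hn : 0 ≤ A := Matrix.nonneg_iff_posSemidef.mpr hA
  conv_rhs => rw [← cfc_id' ℝ A]
  refine cfc_congr ?_
  intro t ht
  exact max_eq_left (spectrum_nonneg_of_nonneg hn ht)

theorem nn_eq_zero (A : Mat N) (hA : A.PosSemidef) : nn A = 0 := by
  have h := pp_sub_nn A hA.1
  rw [pp_eq_self A hA] at h
  have : nn A = A - A := by
    have h2 : A - nn A = A := h
    calc nn A = A - (A - nn A) := by abel
      _ = A - A := by rw [h2]
  rw [this, sub_self]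

theorem psd_of_nn_eq_zero (A : Mat N) (hA : A.IsHermitian) (h : nn A = 0) : A.PosSemidef := by
  have h2 := pp_sub_nn A hA
  rw [h, sub_zero] at h2
  rw [← h2]; exact pp_psd A

theorem tp_add_left (A B C : Mat N) : tp (A + B) C = tp A C + tp B C := by
  unfold tp; rw [Matrix.add_mul, Matrix.trace_add, Complex.add_re]
theorem tp_add_right (A B C : Mat N) : tp A (B + C) = tp A B + tp A C := by
  unfold tp; rw [Matrix.mul_add, Matrix.trace_add, Complex.add_re]
theorem tp_sub_left (A B C : Mat N) : tp (A - B) C = tp A C - tp B C := by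
  unfold tp; rw [Matrix.sub_mul, Matrix.trace_sub, Complex.sub_re]
theorem tp_sub_right (A B C : Mat N) : tp A (B - C) = tp A B - tp A C := by
  unfold tp; rw [Matrix.mul_sub, Matrix.trace_sub, Complex.sub_re]
theorem tp_neg_right (A B : Mat N) : tp A (-B) = - tp A B := by
  unfold tp; rw [Matrix.mul_neg, Matrix.trace_neg, Complex.neg_re]
theorem tp_neg_left (A B : Mat N) : tp (-A) B = - tp A B := by
  unfold tp; rw [Matrix.neg_mul, Matrix.trace_neg, Complex.neg_re]
theorem tp_comm (A B : Mat N) : tp A B = tp B A := by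
  unfold tp; rw [Matrix.trace_mul_comm]
theorem tp_smul_right (c : ℝ) (A B : Mat N) : tp A (c • B) = c * tp A B := by
  unfold tp; rw [Matrix.mul_smul, Matrix.trace_smul]; simp
theorem tp_smul_left (c : ℝ) (A B : Mat N) : tp (c • A) B = c * tp A B := by
  rw [tp_comm, tp_smul_right, tp_comm]

/-- trace of a product of positive semidefinite matrices -/
theorem tp_nonneg {A B : Mat N} (hA : A.PosSemidef) (hB : B.PosSemidef) : 0 ≤ tp A B := by
  obtain ⟨C, hC1, hC2, hC⟩ : ∃ C : Mat N, C.PosSemidef ∧ Cᴴ = C ∧ C * C = A :=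
    ⟨CFC.sqrt A, (CFC.sqrt_nonneg A).posSemidef, (CFC.sqrt_nonneg A).posSemidef.isHermitian,
      CFC.sqrt_mul_sqrt_self A hA.nonneg⟩
  unfold tp
  have h1 : (A * B).trace = (C * B * Cᴴ).trace := by
    rw [← hC, hC2, Matrix.mul_assoc, Matrix.trace_mul_comm]
  rw [h1]
  have h2 : (C * B * Cᴴ).PosSemidef := hB.mul_mul_conjTranspose_same C
  have h3 := h2.trace_nonneg
  rw [Complex.le_def] at h3
  simpa using h3.1

theorem tp_self_nonneg {A : Mat N} (hA : A.IsHermitian) : 0 ≤ tp A A := by
  unfold tp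
  have h2 : (Aᴴ * A).PosSemidef := Matrix.posSemidef_conjTranspose_mul_self A
  rw [hA.eq] at h2
  have h3 := h2.trace_nonneg
  rw [Complex.le_def] at h3
  simpa using h3.1

end Vale.LT2.RowE
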