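import Vale.Agent.H12.LT2Ea

/-!
Row E of P371, part b: Frobenius norm, Lipschitz bounds, derivative of `‖nn A‖²`.
-/

open MeasureTheory Matrix Set
open scoped ENNReal ComplexOrder MatrixOrder

namespace Vale.LT2.RowE

variable {N : ℕ}

/-- matrices with the Frobenius norm -/
abbrev FM (N : ℕ) := EuclideanSpace ℂ (Fin N × Fin N)

/-- the linear equivalence between `FM N` and matrices -/
noncomputable def toM : FM N ≃ₗ[ℝ] Mat N where
  toFun x := Matrix.of fun i j => x (i, j)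
  invFun A := WithLp.toLp 2 fun p => A p.1 p.2
  map_add' x y := by ext i j; simp
  map_smul' c x := by ext i j; simp
  left_inv x := by ext p; simp
  right_inv A := by ext i j; simp

/-- inverse map -/
noncomputable def ofM (A : Mat N) : FM N := toM.symm A

@[simp] theorem toM_ofM (A : Mat N) : toM (ofM A) = A := LinearEquiv.apply_symm_apply _ _
@[simp] theorem ofM_toM (x : FM N) : ofM (toM x) = x := LinearEquiv.symm_apply_apply _ _
theorem toM_apply (x : FM N) (i j : Fin N) : toM x i j = x (i, j) := rfl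
theorem ofM_apply (A : Mat N) (p : Fin N × Fin N) : ofM A p = A p.1 p.2 := rfl
theorem ofM_add (A B : Mat N) : ofM (A + B) = ofM A + ofM B := map_add _ _ _
theorem ofM_sub (A B : Mat N) : ofM (A - B) = ofM A - ofM B := map_sub _ _ _
theorem ofM_neg (A : Mat N) : ofM (-A) = -ofM A := map_neg _ _
theorem ofM_smul (c : ℝ) (A : Mat N) : ofM (c • A) = c • ofM A := map_smul _ _ _
theorem ofM_zero : ofM (0 : Mat N) = 0 := map_zero _

theorem fnorm_sq (A : Mat N) : ‖ofM A‖ ^ 2 = ∑ i, ∑ j, ‖A i j‖ ^ 2 := by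
  rw [EuclideanSpace.norm_sq_eq, Fintype.sum_prod_type]
  rfl

theorem norm_sq_eq (A : Mat N) : ‖ofM A‖ ^ 2 = ((Aᴴ * A).trace).re := by
  rw [fnorm_sq, Matrix.trace, Complex.re_sum]
  simp only [Matrix.diag_apply, Matrix.mul_apply, Matrix.conjTranspose_apply, Complex.re_sum]
  rw [Finset.sum_comm]
  refine Finset.sum_congr rfl fun i _ => Finset.sum_congr rfl fun j _ => ?_
  rw [← Complex.normSq_eq_norm_sq]
  simp [Complex.normSq_apply]

theorem norm_sq_tp {A : Mat N} (hA : A.IsHermitian) : ‖ofM A‖ ^ 2 = tp A A := by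
  rw [norm_sq_eq, hA.eq]; rfl

section
open scoped Matrix.Norms.Frobenius
theorem fnorm_eq (A : Mat N) : ‖ofM A‖ = ‖A‖ := by
  have h1 : ‖A‖ ^ 2 = ∑ i, ∑ j, ‖A i j‖ ^ 2 := by
    rw [Matrix.frobenius_norm_def, ← Real.sqrt_eq_rpow, Real.sq_sqrt]
    · simp
    · positivity
  have h2 : ‖ofM A‖ ^ 2 = ‖A‖ ^ 2 := by rw [h1, fnorm_sq]
  rw [← Real.sqrt_sq (norm_nonneg (ofM A)), h2, Real.sqrt_sq (norm_nonneg _)]

theorem fnorm_mul (A B : Mat N) : ‖ofM (A * B)‖ ≤ ‖ofM A‖ * ‖ofM B‖ := by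
  rw [fnorm_eq, fnorm_eq, fnorm_eq]
  exact Matrix.frobenius_norm_mul A B
end

theorem herm_sub {A B : Mat N} (hA : A.IsHermitian) (hB : B.IsHermitian) :
    (A - B).IsHermitian := hA.sub hB

/-- main inequality for positive and negative parts -/
theorem norm_parts (A B : Mat N) (hA : A.IsHermitian) (hB : B.IsHermitian) :
    ‖ofM (pp A - pp B)‖ ^ 2 + ‖ofM (nn A - nn B)‖ ^ 2 ≤ ‖ofM (A - B)‖ ^ 2 := by
  rw [norm_sq_tp (herm_sub (pp_psd A).1 (pp_psd B).1), norm_sq_tp (herm_sub (nn_psd A).1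
    (nn_psd B).1), norm_sq_tp (herm_sub hA hB)]
  have e : A - B = (pp A - pp B) - (nn A - nn B) := by
    conv_lhs => rw [← pp_sub_nn A hA, ← pp_sub_nn B hB]
    abel
  rw [e]
  have z1 : tp (pp A) (nn A) = 0 := by unfold tp; rw [pp_mul_nn A hA]; simp
  have z2 : tp (pp B) (nn B) = 0 := by unfold tp; rw [pp_mul_nn B hB]; simp
  have p1 := tp_nonneg (pp_psd A) (nn_psd B)
  have p2 := tp_nonneg (pp_psd B) (nn_psd A)
  simp only [tp_sub_left, tp_sub_right]
  rw [tp_comm (nn A) (pp A), tp_comm (nn A) (pp B), tp_comm (nn B) (pp A),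
    tp_comm (nn B) (pp B)]
  linarith

theorem pp_lip (A B : Mat N) (hA : A.IsHermitian) (hB : B.IsHermitian) :
    ‖ofM (pp A - pp B)‖ ≤ ‖ofM (A - B)‖ := by
  have h := norm_parts A B hA hB
  have h2 : ‖ofM (pp A - pp B)‖ ^ 2 ≤ ‖ofM (A - B)‖ ^ 2 := by nlinarith [sq_nonneg ‖ofM (nn A - nn B)‖]
  exact le_of_sq_le_sq h2 (norm_nonneg _)

theorem nn_lip (A B : Mat N) (hA : A.IsHermitian) (hB : B.IsHermitian) :
    ‖ofM (nn A - nn B)‖ ≤ ‖ofM (A - B)‖ := by
  have h := norm_parts A B hA hB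
  have h2 : ‖ofM (nn A - nn B)‖ ^ 2 ≤ ‖ofM (A - B)‖ ^ 2 := by nlinarith [sq_nonneg ‖ofM (pp A - pp B)‖]
  exact le_of_sq_le_sq h2 (norm_nonneg _)

/-- quadratic upper bound -/
theorem nn_sq_le (A B : Mat N) (hA : A.IsHermitian) (hB : B.IsHermitian) :
    ‖ofM (nn B)‖ ^ 2 ≤ ‖ofM (nn A)‖ ^ 2 - 2 * tp (nn A) (B - A) + ‖ofM (B - A)‖ ^ 2 := by
  rw [norm_sq_tp (nn_psd A).1, norm_sq_tp (nn_psd B).1, norm_sq_tp (herm_sub hB hA)]
  -- `‖ofM (nn B)‖² ≤ ‖B - pp A‖²`
  have e : B - A = (pp B - nn B) - (pp A - nn A) := by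
    rw [pp_sub_nn A hA, pp_sub_nn B hB]
  have h0 := tp_self_nonneg (herm_sub (pp_psd B).1 (pp_psd A).1)
  have z1 : tp (pp A) (nn A) = 0 := by unfold tp; rw [pp_mul_nn A hA]; simp
  have z2 : tp (pp B) (nn B) = 0 := by unfold tp; rw [pp_mul_nn B hB]; simp
  have p1 := tp_nonneg (pp_psd A) (nn_psd B)
  have p2 := tp_nonneg (pp_psd B) (nn_psd A)
  rw [e]
  simp only [tp_sub_left, tp_sub_right] at h0 ⊢
  rw [tp_comm (nn A) (pp A), tp_comm (nn A) (pp B), tp_comm (nn B) (pp A),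
    tp_comm (nn B) (pp B), tp_comm (nn B) (nn A)]
  rw [tp_comm (pp A) (pp B)] at h0 ⊢
  linarith

theorem nn_sq_ge (A B : Mat N) (hA : A.IsHermitian) (hB : B.IsHermitian) :
    ‖ofM (nn A)‖ ^ 2 - 2 * tp (nn A) (B - A) - ‖ofM (B - A)‖ ^ 2 ≤ ‖ofM (nn B)‖ ^ 2 := by
  have h := nn_sq_le B A hB hA
  have e2 : ‖ofM (A - B)‖ = ‖ofM (B - A)‖ := by
    rw [ofM_sub, ofM_sub, norm_sub_rev]
  rw [e2] at h
  have e : B - A = (pp B - nn B) - (pp A - nn A) := by
    rw [pp_sub_nn A hA, pp_sub_nn B hB]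
  have z1 : tp (pp A) (nn A) = 0 := by unfold tp; rw [pp_mul_nn A hA]; simp
  have z2 : tp (pp B) (nn B) = 0 := by unfold tp; rw [pp_mul_nn B hB]; simp
  have p1 := tp_nonneg (pp_psd A) (nn_psd B)
  have p2 := tp_nonneg (pp_psd B) (nn_psd A)
  have h0 := tp_self_nonneg (herm_sub (nn_psd B).1 (nn_psd A).1)
  -- `tp (nn B - nn A) (B - A) ≤ 0`
  have key : tp (nn B) (B - A) - tp (nn A) (B - A) ≤ 0 := by
    rw [e]
    simp only [tp_sub_left, tp_sub_right] at h0 ⊢
    rw [tp_comm (nn A) (pp A), tp_comm (nn A) (pp B), tp_comm (nn B) (pp A),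
      tp_comm (nn B) (pp B)]
    linarith
  have e3 : tp (nn B) (A - B) = - tp (nn B) (B - A) := by
    rw [← tp_neg_right]; congr 1; abel
  rw [e3] at h
  linarith

/-- derivative of `‖nn (A s)‖²` within a set -/
theorem hasDerivWithinAt_nn_sq (A : ℝ → FM N) (A' : FM N) (s : Set ℝ) (t : ℝ)
    (hA : ∀ x ∈ s, (toM (A x)).IsHermitian) (ht : t ∈ s) (hd : HasDerivWithinAt A A' s t) :
    HasDerivWithinAt (fun x => ‖ofM (nn (toM (A x)))‖ ^ 2)
      (-2 * tp (nn (toM (A t))) (toM A')) s t := by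
  -- the linear part
  have hl : ∃ f : FM N →L[ℝ] ℝ, ∀ B, f B = tp (nn (toM (A t))) (toM B) := by
    let g : FM N →ₗ[ℝ] ℝ :=
      { toFun := fun B => tp (nn (toM (A t))) (toM B)
        map_add' := fun x y => by rw [map_add, tp_add_right]
        map_smul' := fun c x => by rw [map_smul, tp_smul_right]; rfl }
    exact ⟨LinearMap.toContinuousLinearMap g, fun B => rfl⟩
  obtain ⟨f, hf⟩ := hl
  have hlin : HasDerivWithinAt (fun x => -2 * f (A x)) (-2 * f A') s t :=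
    ((f.hasFDerivAt (x := A t)).comp_hasDerivWithinAt t hd).const_mul (-2)
  rw [← hf]
  rw [hasDerivWithinAt_iff_isLittleO] at hlin hd ⊢
  have hdiff : (fun x => ‖A x - A t‖ ^ 2) =o[nhdsWithin t s] fun x => x - t := by
    have hO : (fun x => A x - A t) =O[nhdsWithin t s] fun x => x - t := by
      have h1 : (fun x => A x - A t) = fun x => (A x - A t - (x - t) • A') + (x - t) • A' := by
        funext x; abel
      rw [h1]
      refine hd.isBigO.add ?_
      refine Asymptotics.IsBigO.of_bound ‖A'‖ ?_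
      filter_upwards with x
      rw [norm_smul, mul_comm]
    have h2 : (fun x => ‖A x - A t‖ ^ 2) =O[nhdsWithin t s] fun x => (x - t) ^ 2 :=
      (hO.norm_left).pow 2
    refine h2.trans_isLittleO ?_
    have h3 : Filter.Tendsto (fun x : ℝ => x - t) (nhdsWithin t s) (nhds 0) := by
      have : Filter.Tendsto (fun x : ℝ => x - t) (nhds t) (nhds (t - t)) :=
        (continuous_id.sub continuous_const).tendsto t
      rw [sub_self] at this
      exact this.mono_left nhdsWithin_le_nhds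
    have h4 : (fun x : ℝ => x - t) =o[nhdsWithin t s] fun _ => (1 : ℝ) := by
      rw [Asymptotics.isLittleO_one_iff]; exact h3
    have h5 := h4.mul_isBigO (Asymptotics.isBigO_refl (fun x : ℝ => x - t) (nhdsWithin t s))
    refine (h5.congr_left ?_).congr_right ?_
    · intro x; ring
    · intro x; ring
  -- combine
  have hbound : ∀ x ∈ s, |‖ofM (nn (toM (A x)))‖ ^ 2 - ‖ofM (nn (toM (A t)))‖ ^ 2
      - (-2 * f (A x) - -2 * f (A t))| ≤ ‖A x - A t‖ ^ 2 := by
    intro x hx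
    have h1 := nn_sq_le (toM (A t)) (toM (A x)) (hA t ht) (hA x hx)
    have h2 := nn_sq_ge (toM (A t)) (toM (A x)) (hA t ht) (hA x hx)
    rw [tp_sub_right, ofM_sub, ofM_toM, ofM_toM] at h1 h2
    rw [hf, hf, abs_le]
    constructor <;> linarith
  have hsum : (fun x => ‖ofM (nn (toM (A x)))‖ ^ 2 - ‖ofM (nn (toM (A t)))‖ ^ 2
        - (x - t) • (-2 * f A'))
      = fun x => (‖ofM (nn (toM (A x)))‖ ^ 2 - ‖ofM (nn (toM (A t)))‖ ^ 2
        - (-2 * f (A x) - -2 * f (A t)))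
        + (-2 * f (A x) - -2 * f (A t) - (x - t) • (-2 * f A')) := by
    funext x; ring
  rw [hsum]
  refine Asymptotics.IsLittleO.add ?_ hlin
  refine Asymptotics.IsBigO.trans_isLittleO ?_ hdiff
  refine Asymptotics.IsBigO.of_bound 1 ?_
  filter_upwards [self_mem_nhdsWithin] with x hx
  rw [Real.norm_eq_abs, Real.norm_eq_abs, one_mul, abs_of_nonneg (sq_nonneg ‖A x - A t‖)]
  exact hbound x hx

end Vale.LT2.RowE
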