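import Vale.Agent.H12.LT2Eb

/-!
Row E of P371, part c: the vector field, existence and comparison of solutions.
-/

open MeasureTheory Matrix Set
open scoped ENNReal ComplexOrder MatrixOrder NNReal

namespace Vale.LT2.RowE

variable {N : ℕ}

/-- Hermitian part -/
noncomputable def hm (A : Mat N) : Mat N := (1 / 2 : ℝ) • (A + Aᴴ)

theorem hm_herm (A : Mat N) : (hm A).IsHermitian := by
  unfold hm Matrix.IsHermitian
  rw [Matrix.conjTranspose_smul, Matrix.conjTranspose_add, Matrix.conjTranspose_conjTranspose,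
    add_comm]
  simp

theorem hm_eq {A : Mat N} (hA : A.IsHermitian) : hm A = A := by
  unfold hm
  rw [hA.eq, ← two_smul ℝ A, smul_smul]
  norm_num

theorem fnorm_conjTranspose (A : Mat N) : ‖ofM Aᴴ‖ = ‖ofM A‖ := by
  have h2 : ‖ofM Aᴴ‖ ^ 2 = ‖ofM A‖ ^ 2 := by
    rw [fnorm_sq, fnorm_sq, Finset.sum_comm]
    simp
  rw [← Real.sqrt_sq (norm_nonneg (ofM Aᴴ)), h2, Real.sqrt_sq (norm_nonneg _)]

theorem hm_lip (A B : Mat N) : ‖ofM (hm A - hm B)‖ ≤ ‖ofM (A - B)‖ := by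
  have e : hm A - hm B = (1 / 2 : ℝ) • ((A - B) + (A - B)ᴴ) := by
    unfold hm
    rw [Matrix.conjTranspose_sub, ← smul_sub]
    congr 1
    abel
  rw [e, ofM_smul, ofM_add, norm_smul]
  have h1 := norm_add_le (ofM (A - B)) (ofM (A - B)ᴴ)
  rw [fnorm_conjTranspose] at h1
  rw [Real.norm_eq_abs, abs_of_pos (by norm_num : (0 : ℝ) < 1 / 2)]
  linarith

/-- spectral clipping to `[0, κ]` of the Hermitian part -/
noncomputable def clp (κ : ℝ) (A : Mat N) : Mat N := pp (hm A) - pp (hm A - κ • 1)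

theorem smul_one_herm (κ : ℝ) : ((κ • 1 : Mat N)).IsHermitian := by
  unfold Matrix.IsHermitian
  rw [Matrix.conjTranspose_smul, Matrix.conjTranspose_one]
  simp

theorem clp_herm (κ : ℝ) (A : Mat N) : (clp κ A).IsHermitian := (pp_psd _).1.sub (pp_psd _).1

theorem clp_norm (κ : ℝ) (A : Mat N) : ‖ofM (clp κ A)‖ ≤ ‖ofM (κ • (1 : Mat N))‖ := by
  have h := pp_lip (hm A) (hm A - κ • 1) (hm_herm A) ((hm_herm A).sub (smul_one_herm κ))
  have e : hm A - (hm A - κ • 1) = κ • (1 : Mat N) := by abel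
  rw [e] at h
  exact h

theorem clp_lip (κ : ℝ) (A B : Mat N) : ‖ofM (clp κ A - clp κ B)‖ ≤ 2 * ‖ofM (A - B)‖ := by
  have e : clp κ A - clp κ B = (pp (hm A) - pp (hm B))
      - (pp (hm A - κ • 1) - pp (hm B - κ • 1)) := by
    unfold clp; abel
  rw [e, ofM_sub]
  have h1 := pp_lip (hm A) (hm B) (hm_herm A) (hm_herm B)
  have h2 := pp_lip (hm A - κ • 1) (hm B - κ • 1) ((hm_herm A).sub (smul_one_herm κ))
    ((hm_herm B).sub (smul_one_herm κ))
  have e2 : hm A - κ • 1 - (hm B - κ • 1) = hm A - hm B := by abel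
  rw [e2] at h2
  have h3 := hm_lip A B
  have h4 := norm_sub_le (ofM (pp (hm A) - pp (hm B))) (ofM (pp (hm A - κ • 1) - pp (hm B - κ • 1)))
  linarith

/-- the quadratic part of the vector field -/
noncomputable def gf (κ : ℝ) (K A : Mat N) : Mat N :=
  K * clp κ A + clp κ A * K - clp κ A * clp κ A

theorem gf_herm (κ : ℝ) (K A : Mat N) (hK : K.IsHermitian) : (gf κ K A).IsHermitian := by
  unfold gf Matrix.IsHermitian
  rw [Matrix.conjTranspose_sub, Matrix.conjTranspose_add, Matrix.conjTranspose_mul,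
    Matrix.conjTranspose_mul, Matrix.conjTranspose_mul, (clp_herm κ A).eq, hK.eq]
  rw [add_comm (clp κ A * K)]

theorem gf_norm (κ : ℝ) (K A : Mat N) :
    ‖ofM (gf κ K A)‖ ≤ 2 * ‖ofM K‖ * ‖ofM (κ • (1 : Mat N))‖ + ‖ofM (κ • (1 : Mat N))‖ ^ 2 := by
  unfold gf
  rw [ofM_sub, ofM_add]
  set c := ‖ofM (κ • (1 : Mat N))‖
  have hc : ‖ofM (clp κ A)‖ ≤ c := clp_norm κ A
  have h0 := norm_nonneg (ofM (clp κ A))
  have hk := norm_nonneg (ofM K)
  have h1 := fnorm_mul K (clp κ A)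
  have h2 := fnorm_mul (clp κ A) K
  have h3 := fnorm_mul (clp κ A) (clp κ A)
  have h4 := norm_sub_le (ofM (K * clp κ A) + ofM (clp κ A * K)) (ofM (clp κ A * clp κ A))
  have h5 := norm_add_le (ofM (K * clp κ A)) (ofM (clp κ A * K))
  nlinarith [mul_le_mul_of_nonneg_left hc hk, mul_le_mul hc hc h0 (h0.trans hc)]

theorem gf_lip (κ : ℝ) (K A B : Mat N) :
    ‖ofM (gf κ K A - gf κ K B)‖
      ≤ (4 * ‖ofM K‖ + 4 * ‖ofM (κ • (1 : Mat N))‖) * ‖ofM (A - B)‖ := by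
  set c := ‖ofM (κ • (1 : Mat N))‖
  have e : gf κ K A - gf κ K B = K * (clp κ A - clp κ B) + (clp κ A - clp κ B) * K
      - ((clp κ A - clp κ B) * clp κ A + clp κ B * (clp κ A - clp κ B)) := by
    unfold gf; noncomm_ring
  rw [e, ofM_sub, ofM_add, ofM_add]
  have hA : ‖ofM (clp κ A)‖ ≤ c := clp_norm κ A
  have hB : ‖ofM (clp κ B)‖ ≤ c := clp_norm κ B
  have hAB := clp_lip κ A B
  set D := clp κ A - clp κ B
  have hD0 := norm_nonneg (ofM D)
  have hk := norm_nonneg (ofM K)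
  have hA0 := norm_nonneg (ofM (clp κ A))
  have hB0 := norm_nonneg (ofM (clp κ B))
  have h1 := fnorm_mul K D
  have h2 := fnorm_mul D K
  have h3 := fnorm_mul D (clp κ A)
  have h3' := fnorm_mul (clp κ B) D
  have h4 := norm_sub_le (ofM (K * D) + ofM (D * K)) (ofM (D * clp κ A) + ofM (clp κ B * D))
  have h5 := norm_add_le (ofM (K * D)) (ofM (D * K))
  have h6 := norm_add_le (ofM (D * clp κ A)) (ofM (clp κ B * D))
  have h7 : ‖ofM D‖ * ‖ofM (clp κ A)‖ ≤ ‖ofM D‖ * c := mul_le_mul_of_nonneg_left hA hD0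
  have h8 : ‖ofM (clp κ B)‖ * ‖ofM D‖ ≤ c * ‖ofM D‖ := mul_le_mul_of_nonneg_right hB hD0
  have hc0 : 0 ≤ c := hA0.trans hA
  calc _ ≤ (2 * ‖ofM K‖ + 2 * c) * ‖ofM D‖ := by nlinarith
    _ ≤ (2 * ‖ofM K‖ + 2 * c) * (2 * ‖ofM (A - B)‖) :=
        mul_le_mul_of_nonneg_left hAB (by positivity)
    _ = _ := by ring

/-- the vector field -/
noncomputable def vf (κ : ℝ) (K : Mat N) (Q : ℝ → Mat N) (t : ℝ) (x : FM N) : FM N :=
  ofM (gf κ K (toM x) - Q t)

/-- solution on `[-L, L]` -/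
structure Sol (L κ : ℝ) (K : Mat N) (Q : ℝ → Mat N) (α : ℝ → FM N) : Prop where
  init : α (-L) = ofM (K + K)
  deriv : ∀ t ∈ Icc (-L) L, HasDerivWithinAt α (vf κ K Q t (α t)) (Icc (-L) L) t

theorem vf_lip (κ : ℝ) (K : Mat N) (Q : ℝ → Mat N) (t : ℝ) :
    LipschitzWith (Real.toNNReal (4 * ‖ofM K‖ + 4 * ‖ofM (κ • (1 : Mat N))‖)) (vf κ K Q t) := by
  refine LipschitzWith.of_dist_le_mul fun x y => ?_
  rw [Real.coe_toNNReal _ (by positivity), dist_eq_norm, dist_eq_norm]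
  have e : vf κ K Q t x - vf κ K Q t y = ofM (gf κ K (toM x) - gf κ K (toM y)) := by
    unfold vf
    rw [← ofM_sub]; congr 1; abel
  rw [e]
  have h := gf_lip κ K (toM x) (toM y)
  rwa [ofM_sub (toM x), ofM_toM, ofM_toM] at h

theorem exists_sol (L : ℝ) (hL : 0 < L) (κ : ℝ) (K : Mat N) (Q : ℝ → Mat N)
    (hQc : ContinuousOn (fun t => ofM (Q t)) (Icc (-L) L)) (C1 : ℝ)
    (hQb : ∀ t ∈ Icc (-L) L, ‖ofM (Q t)‖ ≤ C1) :
    ∃ α : ℝ → FM N, Sol L κ K Q α := by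
  have hLL : -L ≤ L := by linarith
  set B : ℝ := 2 * ‖ofM K‖ * ‖ofM (κ • (1 : Mat N))‖ + ‖ofM (κ • (1 : Mat N))‖ ^ 2 + C1 with hB
  have hC1 : 0 ≤ C1 := (norm_nonneg _).trans (hQb (-L) ⟨le_rfl, hLL⟩)
  have hB0 : 0 ≤ B := by positivity
  have hpl : IsPicardLindelof (vf κ K Q) (tmin := -L) (tmax := L) ⟨-L, le_rfl, hLL⟩ (ofM (K + K))
      (Real.toNNReal (B * (2 * L))) 0 (Real.toNNReal B)
      (Real.toNNReal (4 * ‖ofM K‖ + 4 * ‖ofM (κ • (1 : Mat N))‖)) := by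
    refine ⟨fun t _ => (vf_lip κ K Q t).lipschitzOnWith, fun x _ => ?_, fun t ht x _ => ?_, ?_⟩
    · unfold vf
      simp only [ofM_sub]
      exact continuousOn_const.sub hQc
    · rw [Real.coe_toNNReal _ hB0]
      unfold vf
      rw [ofM_sub]
      have h1 := norm_sub_le (ofM (gf κ K (toM x))) (ofM (Q t))
      have h2 := gf_norm κ K (toM x)
      have h3 := hQb t ht
      linarith
    · rw [Real.coe_toNNReal _ hB0, Real.coe_toNNReal _ (by positivity)]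
      simp only [NNReal.coe_zero, sub_zero]
      have : max (L - -L) (-L - -L) = 2 * L := by
        rw [max_eq_left (by linarith)]; ring
      rw [this]
  obtain ⟨α, h1, h2⟩ := hpl.exists_eq_forall_mem_Icc_hasDerivWithinAt₀
  exact ⟨α, h1, h2⟩

theorem Sol.continuousOn {L κ : ℝ} {K : Mat N} {Q : ℝ → Mat N} {α : ℝ → FM N}
    (h : Sol L κ K Q α) : ContinuousOn α (Icc (-L) L) :=
  fun t ht => (h.deriv t ht).continuousWithinAt

/-- solutions depend continuously on `K` and `Q` -/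
theorem Sol.dist_le {L κ : ℝ} {K K' : Mat N} {Q Q' : ℝ → Mat N} {α α' : ℝ → FM N}
    (h : Sol L κ K Q α) (h' : Sol L κ K' Q' α') (ε : ℝ)
    (hε : ∀ t ∈ Icc (-L) L, ‖ofM (Q' t - Q t)‖ ≤ ε) :
    ∀ t ∈ Icc (-L) L, ‖α t - α' t‖ ≤
      gronwallBound (2 * ‖ofM (K - K')‖) (4 * ‖ofM K‖ + 4 * ‖ofM (κ • (1 : Mat N))‖)
        (0 + (2 * ‖ofM (K - K')‖ * ‖ofM (κ • (1 : Mat N))‖ + ε)) (t - -L) := by
  intro t ht
  have hd : ∀ {a : ℝ → FM N} {K Q}, Sol L κ K Q a → ∀ t ∈ Ico (-L) L,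
      HasDerivWithinAt a (vf κ K Q t (a t)) (Ici t) t := by
    intro a K Q ha t ht
    refine (ha.deriv t (Ico_subset_Icc_self ht)).mono_of_mem_nhdsWithin ?_
    exact Icc_mem_nhdsGE_of_mem ht
  have hlip := vf_lip κ K Q
  have key := dist_le_of_approx_trajectories_ODE (v := vf κ K Q)
    (K := Real.toNNReal (4 * ‖ofM K‖ + 4 * ‖ofM (κ • (1 : Mat N))‖)) (f := α) (g := α')
    (f' := fun t => vf κ K Q t (α t)) (g' := fun t => vf κ K' Q' t (α' t)) (a := -L) (b := L)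
    (εf := 0) (εg := 2 * ‖ofM (K - K')‖ * ‖ofM (κ • (1 : Mat N))‖ + ε)
    (δ := 2 * ‖ofM (K - K')‖)
    (fun t => hlip t) h.continuousOn (hd h) (fun t _ => by rw [dist_self])
    h'.continuousOn (hd h') (fun s hs => ?_) ?_ t ht
  · rw [dist_eq_norm, Real.coe_toNNReal _ (by positivity)] at key
    exact key
  · rw [dist_eq_norm]
    have e : vf κ K' Q' s (α' s) - vf κ K Q s (α' s)
        = ofM ((K' - K) * clp κ (toM (α' s)) + clp κ (toM (α' s)) * (K' - K)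
          - (Q' s - Q s)) := by
      unfold vf gf
      rw [← ofM_sub]; congr 1; noncomm_ring
    rw [e, ofM_sub, ofM_add]
    have h1 := fnorm_mul (K' - K) (clp κ (toM (α' s)))
    have h2 := fnorm_mul (clp κ (toM (α' s))) (K' - K)
    have h3 := clp_norm κ (toM (α' s))
    have h4 := norm_sub_le (ofM ((K' - K) * clp κ (toM (α' s)))
      + ofM (clp κ (toM (α' s)) * (K' - K))) (ofM (Q' s - Q s))
    have h5 := norm_add_le (ofM ((K' - K) * clp κ (toM (α' s))))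
      (ofM (clp κ (toM (α' s)) * (K' - K)))
    have h6 := hε s (Ico_subset_Icc_self hs)
    have h7 : ‖ofM (K' - K)‖ = ‖ofM (K - K')‖ := by rw [ofM_sub, ofM_sub, norm_sub_rev]
    rw [h7] at h1 h2
    have h8 := mul_le_mul_of_nonneg_left h3 (norm_nonneg (ofM (K - K')))
    nlinarith
  · rw [h.init, h'.init, dist_eq_norm, ← ofM_sub]
    have e : K + K - (K' + K') = (K - K') + (K - K') := by abel
    rw [e, ofM_add]
    have := norm_add_le (ofM (K - K')) (ofM (K - K'))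
    linarith

end Vale.LT2.RowE
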