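import Vale.Agent.H12.LT2Ec

/-!
Row E of P371, part d: the solution is Hermitian, order bounds, boundary estimates.
-/

open MeasureTheory Matrix Set
open scoped ENNReal ComplexOrder MatrixOrder NNReal

namespace Vale.LT2.RowE

variable {N : ℕ}

/-- right derivatives from derivatives within `Icc` -/
theorem deriv_Ici {E : Type*} [NormedAddCommGroup E] [NormedSpace ℝ E] {f : ℝ → E} {f' : E}
    {a b t : ℝ} (ht : t ∈ Ico a b) (h : HasDerivWithinAt f f' (Icc a b) t) :
    HasDerivWithinAt f f' (Ici t) t :=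
  h.mono_of_mem_nhdsWithin (Icc_mem_nhdsGE_of_mem ht)

/-- a real linear map on `FM N` is continuous -/
theorem lin_deriv {E : Type*} [NormedAddCommGroup E] [NormedSpace ℝ E]
    (g : FM N →ₗ[ℝ] E) {A : ℝ → FM N} {A' : FM N} {s : Set ℝ} {t : ℝ}
    (hd : HasDerivWithinAt A A' s t) : HasDerivWithinAt (fun x => g (A x)) (g A') s t :=
  ((LinearMap.toContinuousLinearMap g).hasFDerivAt (x := A t)).comp_hasDerivWithinAt t hd

/-- anti-Hermitian part as a linear map -/
noncomputable def ah : FM N →ₗ[ℝ] FM N where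
  toFun x := ofM (toM x - (toM x)ᴴ)
  map_add' x y := by
    rw [map_add, Matrix.conjTranspose_add, ← ofM_add]; congr 1; abel
  map_smul' c x := by
    rw [map_smul, Matrix.conjTranspose_smul, RingHom.id_apply, ← ofM_smul, smul_sub]
    simp

theorem Sol.herm {L κ : ℝ} {K : Mat N} {Q : ℝ → Mat N} {α : ℝ → FM N}
    (h : Sol L κ K Q α) (hK : K.IsHermitian) (hQ : ∀ t, (Q t).IsHermitian) :
    ∀ t ∈ Icc (-L) L, (toM (α t)).IsHermitian := by
  intro t ht
  have h1 := constant_of_has_deriv_right_zero (f := fun x => ah (α x)) (a := -L) (b := L)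
    (fun x hx => (lin_deriv ah (h.deriv x hx)).continuousWithinAt)
    (fun x hx => by
      have h2 := deriv_Ici hx (lin_deriv ah (h.deriv x (Ico_subset_Icc_self hx)))
      have h3 : ah (vf κ K Q x (α x)) = 0 := by
        unfold vf
        show ofM (toM (ofM _) - (toM (ofM _))ᴴ) = 0
        rw [toM_ofM, ((gf_herm κ K (toM (α x)) hK).sub (hQ x)).eq, sub_self, ofM_zero]
      rwa [h3] at h2) t ht
  have h4 : ah (α (-L)) = 0 := by
    rw [h.init]
    show ofM (toM (ofM _) - (toM (ofM _))ᴴ) = 0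
    rw [toM_ofM, (hK.add hK).eq, sub_self, ofM_zero]
  have h5 : ofM (toM (α t) - (toM (α t))ᴴ) = 0 := by
    have : ah (α t) = ofM (toM (α t) - (toM (α t))ᴴ) := rfl
    rw [← this]
    exact h1.trans h4
  have h6 : toM (α t) - (toM (α t))ᴴ = 0 := by
    have := congrArg toM h5
    rwa [toM_ofM, map_zero] at this
  exact (sub_eq_zero.mp h6).symm

theorem sub_smul_cfc (κ : ℝ) (D : Mat N) (hD : D.IsHermitian) :
    D - κ • 1 = cfc (fun t : ℝ => t - κ) D := by
  have hD' : IsSelfAdjoint D := hD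
  rw [cfc_sub (fun t : ℝ => t) (fun _ => κ) D, cfc_id' ℝ D, cfc_const κ D,
    Algebra.algebraMap_eq_smul_one]

theorem smul_sub_cfc (κ : ℝ) (D : Mat N) (hD : D.IsHermitian) :
    κ • 1 - D = cfc (fun t : ℝ => κ - t) D := by
  have hD' : IsSelfAdjoint D := hD
  rw [cfc_sub (fun _ : ℝ => κ) (fun t => t) D, cfc_id' ℝ D, cfc_const κ D,
    Algebra.algebraMap_eq_smul_one]

theorem pp_shift (κ : ℝ) (D : Mat N) (hD : D.IsHermitian) :
    pp (D - κ • 1) = cfc (fun t : ℝ => max (t - κ) 0) D := by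
  have hD' : IsSelfAdjoint D := hD
  unfold pp
  rw [sub_smul_cfc κ D hD]
  rw [← cfc_comp' (fun t : ℝ => max t 0) (fun t : ℝ => t - κ) D]

theorem nn_shift (κ : ℝ) (D : Mat N) (hD : D.IsHermitian) :
    nn (κ • 1 - D) = cfc (fun t : ℝ => max (t - κ) 0) D := by
  have hD' : IsSelfAdjoint D := hD
  unfold nn
  rw [smul_sub_cfc κ D hD]
  rw [← cfc_comp' (fun t : ℝ => max (-t) 0) (fun t : ℝ => κ - t) D]
  congr 1
  ext t
  congr 1
  ring

theorem clp_cfc (κ : ℝ) (D : Mat N) (hD : D.IsHermitian) :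
    clp κ D = cfc (fun t : ℝ => max t 0 - max (t - κ) 0) D := by
  have hD' : IsSelfAdjoint D := hD
  unfold clp
  rw [hm_eq hD, pp_shift κ D hD]
  unfold pp
  rw [← cfc_sub (fun t : ℝ => max t 0) (fun t : ℝ => max (t - κ) 0) D]

/-- the order bound `D ≤ 2 k` -/
theorem Sol.le_two {L κ : ℝ} {K : Mat N} {Q : ℝ → Mat N} {α : ℝ → FM N}
    (h : Sol L κ K Q α) (hK : K.PosSemidef) (hQ : ∀ t, (Q t).PosSemidef)
    (k : ℝ) (hk : 0 ≤ k) (hkK : (k • 1 - K).PosSemidef) (hkκ : 2 * k ≤ κ) :
    ∀ t ∈ Icc (-L) L, ((2 * k) • 1 - toM (α t)).PosSemidef := by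
  intro t ht
  have hLL : -L ≤ L := ht.1.trans ht.2
  have hherm := h.herm hK.1 (fun t => (hQ t).1)
  set B : ℝ → FM N := fun x => ofM ((2 * k) • (1 : Mat N)) - α x with hB
  have hBh : ∀ x ∈ Icc (-L) L, (toM (B x)).IsHermitian := by
    intro x hx
    rw [hB]
    simp only [map_sub, toM_ofM]
    exact (smul_one_herm _).sub (hherm x hx)
  have hBd : ∀ x ∈ Icc (-L) L, HasDerivWithinAt B (-(vf κ K Q x (α x))) (Icc (-L) L) x :=
    fun x hx => (h.deriv x hx).const_sub _
  have hφ : ∀ x ∈ Icc (-L) L, HasDerivWithinAt (fun x => ‖ofM (nn (toM (B x)))‖ ^ 2)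
      (-2 * tp (nn (toM (B x))) (toM (-(vf κ K Q x (α x))))) (Icc (-L) L) x :=
    fun x hx => hasDerivWithinAt_nn_sq B _ _ x hBh hx (hBd x hx)
  have hneg : ∀ x ∈ Icc (-L) L, tp (nn (toM (B x))) (toM (vf κ K Q x (α x))) ≤ 0 := by
    intro x hx
    set D := toM (α x) with hD
    have hDh : D.IsHermitian := hherm x hx
    have hDs : IsSelfAdjoint D := hDh
    have e1 : toM (B x) = (2 * k) • (1 : Mat N) - D := by
      rw [hB]; simp only [map_sub, toM_ofM]; rfl
    have e2 : toM (vf κ K Q x (α x)) = gf κ K D - Q x := by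
      unfold vf; rw [toM_ofM]
    rw [e1, e2, nn_shift _ D hDh]
    unfold gf
    rw [clp_cfc κ D hDh]
    set P := cfc (fun t : ℝ => max (t - 2 * k) 0) D with hP
    set X := cfc (fun t : ℝ => max t 0 - max (t - κ) 0) D with hX
    have hPX : P * X = X * P := by
      rw [hP, hX, ← cfc_mul (fun t : ℝ => max (t - 2 * k) 0)
        (fun t : ℝ => max t 0 - max (t - κ) 0) D,
        ← cfc_mul (fun t : ℝ => max t 0 - max (t - κ) 0) (fun t : ℝ => max (t - 2 * k) 0) D]
      congr 1
      ext t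
      ring
    have hPXpsd : (P * X).PosSemidef := by
      rw [hP, hX, ← cfc_mul (fun t : ℝ => max (t - 2 * k) 0)
        (fun t : ℝ => max t 0 - max (t - κ) 0) D]
      refine cfc_psd _ _ (fun t _ => ?_)
      refine mul_nonneg (le_max_right _ _) ?_
      have : max (t - κ) 0 ≤ max t 0 := max_le_max (by linarith) le_rfl
      linarith
    have hPXXpsd : (P * X * (X - (2 * k) • 1)).PosSemidef := by
      have e3 : X - (2 * k) • 1 = cfc (fun t : ℝ => max t 0 - max (t - κ) 0 - 2 * k) D := by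
        rw [cfc_sub (fun t : ℝ => max t 0 - max (t - κ) 0) (fun _ => 2 * k) D,
          cfc_const (2 * k) D, Algebra.algebraMap_eq_smul_one]
      rw [e3, hP, hX, ← cfc_mul (fun t : ℝ => max (t - 2 * k) 0)
        (fun t : ℝ => max t 0 - max (t - κ) 0) D,
        ← cfc_mul (fun t : ℝ => max (t - 2 * k) 0 * (max t 0 - max (t - κ) 0))
        (fun t : ℝ => max t 0 - max (t - κ) 0 - 2 * k) D]
      refine cfc_psd _ _ (fun t _ => ?_)
      have h1 : 0 ≤ max t 0 - max (t - κ) 0 := by
        have : max (t - κ) 0 ≤ max t 0 := max_le_max (by linarith) le_rfl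
        linarith
      rcases le_total t (2 * k) with h2 | h2
      · rw [max_eq_right (a := t - 2 * k) (by linarith)]; simp
      · refine mul_nonneg (mul_nonneg (le_max_right _ _) h1) ?_
        rw [max_eq_left (a := t) (by linarith)]
        rcases le_total t κ with h3 | h3
        · rw [max_eq_right (a := t - κ) (by linarith)]; linarith
        · rw [max_eq_left (a := t - κ) (by linarith)]; linarith
    have t1 : tp P (K * X) = tp (P * X) K := by
      unfold tp
      rw [← Matrix.mul_assoc, Matrix.trace_mul_comm, ← Matrix.mul_assoc, ← hPX]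
    have t2 : tp P (X * K) = tp (P * X) K := by
      unfold tp
      rw [← Matrix.mul_assoc]
    have t3 : tp P (X * X) = tp (P * X) (X - (2 * k) • 1) + 2 * k * tp (P * X) 1 := by
      rw [tp_sub_right, tp_smul_right]
      have : tp P (X * X) = tp (P * X) X := by unfold tp; rw [← Matrix.mul_assoc]
      rw [this]; ring
    have t4 : 0 ≤ tp (P * X) (X - (2 * k) • 1) := by
      have := hPXXpsd.trace_nonneg
      rw [Complex.le_def] at this
      unfold tp
      simpa using this.1
    have t5 : tp (P * X) K ≤ k * tp (P * X) 1 := by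
      have := tp_nonneg hPXpsd hkK
      rw [tp_sub_right, tp_smul_right] at this
      linarith
    have t6 : 0 ≤ tp P (Q x) := tp_nonneg (cfc_psd _ _ (fun _ _ => le_max_right _ _)) (hQ x)
    rw [tp_sub_right, tp_sub_right, tp_add_right, t1, t2, t3]
    linarith
  have hanti : AntitoneOn (fun x => ‖ofM (nn (toM (B x)))‖ ^ 2) (Icc (-L) L) := by
    refine antitoneOn_of_hasDerivWithinAt_nonpos (convex_Icc _ _)
      (f' := fun x => -2 * tp (nn (toM (B x))) (toM (-(vf κ K Q x (α x)))))
      (fun x hx => (hφ x hx).continuousWithinAt) (fun x hx => ?_) (fun x hx => ?_)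
    · rw [interior_Icc] at hx ⊢
      exact (hφ x (Ioo_subset_Icc_self hx)).mono Ioo_subset_Icc_self
    · rw [interior_Icc] at hx
      have := hneg x (Ioo_subset_Icc_self hx)
      simp only [map_neg, tp_neg_right]
      linarith
  have h0 : ‖ofM (nn (toM (B (-L))))‖ ^ 2 = 0 := by
    have : toM (B (-L)) = (k • 1 - K) + (k • 1 - K) := by
      rw [hB]
      simp only [map_sub, toM_ofM, h.init]
      rw [two_mul, add_smul]
      abel
    rw [this, nn_eq_zero _ (hkK.add hkK), ofM_zero, norm_zero]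
    norm_num
  have h1 := hanti (left_mem_Icc.mpr hLL) ht ht.1
  simp only [h0] at h1
  have h2 : ‖ofM (nn (toM (B t)))‖ = 0 := by
    have := sq_nonneg ‖ofM (nn (toM (B t)))‖
    exact pow_eq_zero_iff (two_ne_zero) |>.mp (le_antisymm h1 this)
  have h3 : nn (toM (B t)) = 0 := by
    have := norm_eq_zero.mp h2
    have h4 := congrArg toM this
    rwa [toM_ofM, map_zero] at h4
  have h5 := psd_of_nn_eq_zero _ (hBh t ht) h3
  rw [hB] at h5
  simpa only [map_sub, toM_ofM] using h5

end Vale.LT2.RowE
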