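import Vale.Agent.H12.LT2Ed

/-!
Row E of P371, part e: boundary estimates and the final step.
-/

open MeasureTheory Matrix Set
open scoped ENNReal ComplexOrder MatrixOrder NNReal

namespace Vale.LT2.RowE

variable {N : ℕ}

/-- quadratic form -/
noncomputable def qf (w : Fin N → ℂ) (A : Mat N) : ℝ := (star w ⬝ᵥ A.mulVec w).re

theorem qf_add (w : Fin N → ℂ) (A B : Mat N) : qf w (A + B) = qf w A + qf w B := by
  unfold qf; rw [Matrix.add_mulVec, dotProduct_add, Complex.add_re]
theorem qf_sub (w : Fin N → ℂ) (A B : Mat N) : qf w (A - B) = qf w A - qf w B := by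
  unfold qf; rw [Matrix.sub_mulVec, dotProduct_sub, Complex.sub_re]
theorem qf_smul (w : Fin N → ℂ) (c : ℝ) (A : Mat N) : qf w (c • A) = c * qf w A := by
  unfold qf; rw [Matrix.smul_mulVec, dotProduct_smul]; simp
theorem qf_psd (w : Fin N → ℂ) {A : Mat N} (hA : A.PosSemidef) : 0 ≤ qf w A :=
  hA.re_dotProduct_nonneg w

/-- `qf` as a linear map on `FM N` -/
noncomputable def qfl (w : Fin N → ℂ) : FM N →ₗ[ℝ] ℝ where
  toFun x := qf w (toM x)
  map_add' x y := by rw [map_add, qf_add]
  map_smul' c x := by rw [map_smul, qf_smul]; rfl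

theorem qfl_apply (w : Fin N → ℂ) (x : FM N) : qfl w x = qf w (toM x) := rfl

theorem qf_mul_left {w : Fin N → ℂ} {K : Mat N} (X : Mat N) (hK : K.IsHermitian) (k : ℝ)
    (hw : K.mulVec w = (k : ℂ) • w) : qf w (K * X) = k * qf w X := by
  unfold qf
  have e : star w ᵥ* K = (k : ℂ) • star w := by
    have h := Matrix.star_mulVec K w
    rw [hK.eq, hw] at h
    rw [← h]
    simp
  rw [← Matrix.mulVec_mulVec, Matrix.dotProduct_mulVec, e, smul_dotProduct]
  simp

theorem qf_mul_right {w : Fin N → ℂ} {K : Mat N} (X : Mat N) (k : ℝ)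
    (hw : K.mulVec w = (k : ℂ) • w) : qf w (X * K) = k * qf w X := by
  unfold qf
  rw [← Matrix.mulVec_mulVec, hw, Matrix.mulVec_smul, dotProduct_smul]
  simp

theorem sq_psd {X : Mat N} (hX : X.IsHermitian) : (X * X).PosSemidef := by
  have := Matrix.posSemidef_conjTranspose_mul_self X
  rwa [hX.eq] at this

theorem qf_gf (κ : ℝ) {w : Fin N → ℂ} {K : Mat N} (hK : K.IsHermitian) (k : ℝ)
    (hw : K.mulVec w = (k : ℂ) • w) (A : Mat N) :
    qf w (gf κ K A) = 2 * k * qf w (clp κ A) - qf w (clp κ A * clp κ A) := by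
  unfold gf
  rw [qf_sub, qf_add, qf_mul_left _ hK k hw, qf_mul_right _ k hw]
  ring

theorem cont_qf {Q : ℝ → Mat N} {s : Set ℝ} (hQc : ContinuousOn (fun t => ofM (Q t)) s)
    (w : Fin N → ℂ) : ContinuousOn (fun t => qf w (Q t)) s := by
  have h := (LinearMap.toContinuousLinearMap (qfl w)).continuous.comp_continuousOn hQc
  refine h.congr (fun t _ => ?_)
  show _ = qf w (toM (ofM (Q t)))
  rw [toM_ofM]

theorem Sol.ker_bound {L κ : ℝ} {K : Mat N} {Q : ℝ → Mat N} {α : ℝ → FM N}
    (h : Sol L κ K Q α) (hLL : -L ≤ L) (hK : K.PosSemidef)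
    (hQc : ContinuousOn (fun t => ofM (Q t)) (Icc (-L) L))
    (w : Fin N → ℂ) (hw : K.mulVec w = 0) :
    qf w (toM (α L)) ≤ -∫ x in (-L)..L, qf w (Q x) := by
  have hw' : K.mulVec w = ((0 : ℝ) : ℂ) • w := by rw [hw]; simp
  have hd : ∀ x ∈ Icc (-L) L, HasDerivWithinAt (fun x => qfl w (α x))
      (qfl w (vf κ K Q x (α x))) (Icc (-L) L) x := fun x hx => lin_deriv (qfl w) (h.deriv x hx)
  have hc := (cont_qf hQc w).neg
  have key := intervalIntegral.sub_le_integral_of_hasDeriv_right_of_le (a := -L) (b := L)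
    (g := fun x => qfl w (α x)) (g' := fun x => qfl w (vf κ K Q x (α x)))
    (φ := fun x => - qf w (Q x)) hLL (fun x hx => (hd x hx).continuousWithinAt)
    (fun x hx => (deriv_Ici (Ioo_subset_Ico_self hx)
      (hd x (Ioo_subset_Icc_self hx))).mono Ioi_subset_Ici_self)
    (hc.integrableOn_Icc)
    (fun x _ => by
      rw [qfl_apply]
      unfold vf
      rw [toM_ofM, qf_sub, qf_gf κ hK.1 0 hw']
      have := qf_psd w (sq_psd (clp_herm κ (toM (α x))))
      linarith)
  simp only [qfl_apply, h.init, toM_ofM] at key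
  rw [qf_add, intervalIntegral.integral_neg] at key
  have h0 : qf w K = 0 := by unfold qf; rw [hw]; simp
  rw [h0] at key
  linarith

theorem Sol.top_bound {L κ : ℝ} {K : Mat N} {Q : ℝ → Mat N} {α : ℝ → FM N}
    (h : Sol L κ K Q α) (hLL : -L ≤ L) (hK : K.PosSemidef) (hQ : ∀ t, (Q t).PosSemidef)
    (k : ℝ) (hk : 0 ≤ k) (hkK : (k • 1 - K).PosSemidef) (hkκ : 2 * k ≤ κ)
    (w : Fin N → ℂ) (hw : K.mulVec w = (k : ℂ) • w) (C2 : ℝ)
    (hC2 : ∀ t ∈ Icc (-L) L, qf w (Q t) ≤ C2) :
    2 * k * qf w 1 - 2 * L * C2 ≤ qf w (toM (α L)) := by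
  have hd : ∀ x ∈ Icc (-L) L, HasDerivWithinAt (fun x => qfl w (α x))
      (qfl w (vf κ K Q x (α x))) (Icc (-L) L) x := fun x hx => lin_deriv (qfl w) (h.deriv x hx)
  have key := intervalIntegral.integral_le_sub_of_hasDeriv_right_of_le (a := -L) (b := L)
    (g := fun x => qfl w (α x)) (g' := fun x => qfl w (vf κ K Q x (α x)))
    (φ := fun _ => - C2) hLL (fun x hx => (hd x hx).continuousWithinAt)
    (fun x hx => (deriv_Ici (Ioo_subset_Ico_self hx)
      (hd x (Ioo_subset_Icc_self hx))).mono Ioi_subset_Ici_self)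
    (continuousOn_const.integrableOn_Icc)
    (fun x hx => by
      have hx' := Ioo_subset_Icc_self hx
      rw [qfl_apply]
      unfold vf
      rw [toM_ofM, qf_sub, qf_gf κ hK.1 k hw]
      have h1 := hC2 x hx'
      have hDh := h.herm hK.1 (fun t => (hQ t).1) x hx'
      have hDs : IsSelfAdjoint (toM (α x)) := hDh
      have hD2 := h.le_two hK hQ k hk hkK hkκ x hx'
      have h2 : (2 * k * qf w (clp κ (toM (α x))) - qf w (clp κ (toM (α x)) * clp κ (toM (α x))))
          = qf w ((2 * k) • clp κ (toM (α x)) - clp κ (toM (α x)) * clp κ (toM (α x))) := by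
        rw [qf_sub, qf_smul]
      have h3 : ((2 * k) • clp κ (toM (α x)) - clp κ (toM (α x)) * clp κ (toM (α x))).PosSemidef := by
        rw [clp_cfc κ _ hDh, ← cfc_const_mul (2 * k) _ (toM (α x)),
          ← cfc_mul (fun t : ℝ => max t 0 - max (t - κ) 0) (fun t : ℝ => max t 0 - max (t - κ) 0)
            (toM (α x)),
          ← cfc_sub (fun t : ℝ => 2 * k * (max t 0 - max (t - κ) 0))
            (fun t : ℝ => (max t 0 - max (t - κ) 0) * (max t 0 - max (t - κ) 0)) (toM (α x))]
        refine cfc_psd _ _ (fun t ht => ?_)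
        have h4 : t ≤ 2 * k := by
          rw [smul_sub_cfc (2 * k) _ hDh] at hD2
          have h5 : 0 ≤ cfc (fun t : ℝ => 2 * k - t) (toM (α x)) := hD2.nonneg
          rw [cfc_nonneg_iff (fun t : ℝ => 2 * k - t) (toM (α x))] at h5
          have := h5 t ht
          linarith
        have h6 : max (t - κ) 0 = 0 := max_eq_right (by linarith)
        have h7 : max t 0 ≤ 2 * k := max_le h4 (by linarith)
        have h8 : 0 ≤ max t 0 := le_max_right _ _
        rw [h6, sub_zero]
        nlinarith
      have h9 := qf_psd w h3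
      rw [← h2] at h9
      linarith)
  simp only [qfl_apply, h.init, toM_ofM, intervalIntegral.integral_const] at key
  rw [qf_add] at key
  have h0 : qf w K = k * qf w 1 := by
    have := qf_mul_right (K := K) 1 k hw
    rwa [one_mul] at this
  rw [h0] at key
  simp only [smul_eq_mul] at key
  linarith

/-- `RicPath` from a solution with zero end value -/
theorem Sol.ricPath {L κ : ℝ} {K : Mat N} {Q : ℝ → Mat N} {α : ℝ → FM N}
    (h : Sol L κ K Q α) (hLL : -L ≤ L) (hK : K.PosDef) (hQ : ∀ t, (Q t).PosSemidef)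
    (k : ℝ) (hk : 0 ≤ k) (hkK : (k • 1 - K).PosSemidef) (hkκ : 2 * k ≤ κ)
    (hend : α L = 0) : RicPath L K Q (fun x => toM (α x) - K) := by
  have hKs := hK.posSemidef
  have hherm := h.herm hKs.1 (fun t => (hQ t).1)
  -- `D ≥ 0`
  have hmono : MonotoneOn (fun x => ‖ofM (nn (toM (α x)))‖ ^ 2) (Icc (-L) L) := by
    refine monotoneOn_of_hasDerivWithinAt_nonneg (convex_Icc _ _)
      (f' := fun x => -2 * tp (nn (toM (α x))) (toM (vf κ K Q x (α x))))
      (fun x hx => (hasDerivWithinAt_nn_sq α _ _ x hherm hx (h.deriv x hx)).continuousWithinAt)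
      (fun x hx => ?_) (fun x hx => ?_)
    · rw [interior_Icc] at hx ⊢
      have hx' := Ioo_subset_Icc_self hx
      exact (hasDerivWithinAt_nn_sq α _ _ x hherm hx' (h.deriv x hx')).mono Ioo_subset_Icc_self
    · rw [interior_Icc] at hx
      have hx' := Ioo_subset_Icc_self hx
      have hDh := hherm x hx'
      have hD2 := h.le_two hKs hQ k hk hkK hkκ x hx'
      -- clp is the positive part
      have hclp : clp κ (toM (α x)) = pp (toM (α x)) := by
        have hDs : IsSelfAdjoint (toM (α x)) := hDh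
        rw [clp_cfc κ _ hDh]
        unfold pp
        refine cfc_congr (fun t ht => ?_)
        have h4 : t ≤ 2 * k := by
          rw [smul_sub_cfc (2 * k) _ hDh] at hD2
          have h5 : 0 ≤ cfc (fun t : ℝ => 2 * k - t) (toM (α x)) := hD2.nonneg
          rw [cfc_nonneg_iff (fun t : ℝ => 2 * k - t) (toM (α x))] at h5
          have := h5 t ht
          linarith
        have h6 : max (t - κ) 0 = 0 := max_eq_right (by linarith)
        simp only [h6, sub_zero]
      unfold vf
      rw [toM_ofM, tp_sub_right]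
      unfold gf
      rw [hclp]
      have z1 : tp (nn (toM (α x))) (K * pp (toM (α x))) = 0 := by
        unfold tp
        rw [← Matrix.mul_assoc, Matrix.trace_mul_comm, ← Matrix.mul_assoc, pp_mul_nn _ hDh]
        simp
      have z2 : tp (nn (toM (α x))) (pp (toM (α x)) * K) = 0 := by
        unfold tp
        rw [← Matrix.mul_assoc, nn_mul_pp _ hDh]
        simp
      have z3 : tp (nn (toM (α x))) (pp (toM (α x)) * pp (toM (α x))) = 0 := by
        unfold tp
        rw [← Matrix.mul_assoc, nn_mul_pp _ hDh]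
        simp
      rw [tp_sub_right, tp_add_right, z1, z2, z3]
      have := tp_nonneg (nn_psd (toM (α x))) (hQ x)
      linarith
  have hDpsd : ∀ x ∈ Icc (-L) L, (toM (α x)).PosSemidef := by
    intro x hx
    have h1 := hmono hx (right_mem_Icc.mpr hLL) hx.2
    simp only [hend, map_zero] at h1
    rw [nn_eq_zero 0 Matrix.PosSemidef.zero, ofM_zero, norm_zero] at h1
    have h2 : ‖ofM (nn (toM (α x)))‖ = 0 := by
      have := sq_nonneg ‖ofM (nn (toM (α x)))‖
      refine pow_eq_zero_iff (two_ne_zero) |>.mp (le_antisymm ?_ this)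
      simpa using h1
    have h3 : nn (toM (α x)) = 0 := by
      have := norm_eq_zero.mp h2
      have h4 := congrArg toM this
      rwa [toM_ofM, map_zero] at h4
    exact psd_of_nn_eq_zero _ (hherm x hx) h3
  -- now `clp` is the identity
  have hclp : ∀ x ∈ Icc (-L) L, clp κ (toM (α x)) = toM (α x) := by
    intro x hx
    have hDh := hherm x hx
    have hDs : IsSelfAdjoint (toM (α x)) := hDh
    have hD2 := h.le_two hKs hQ k hk hkK hkκ x hx
    have e : clp κ (toM (α x)) = pp (toM (α x)) := by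
      rw [clp_cfc κ _ hDh]
      unfold pp
      refine cfc_congr (fun t ht => ?_)
      have h4 : t ≤ 2 * k := by
        rw [smul_sub_cfc (2 * k) _ hDh] at hD2
        have h5 : 0 ≤ cfc (fun t : ℝ => 2 * k - t) (toM (α x)) := hD2.nonneg
        rw [cfc_nonneg_iff (fun t : ℝ => 2 * k - t) (toM (α x))] at h5
        have := h5 t ht
        linarith
      have h6 : max (t - κ) 0 = 0 := max_eq_right (by linarith)
      simp only [h6, sub_zero]
    rw [e, pp_eq_self _ (hDpsd x hx)]
  have hvf : ∀ x ∈ Icc (-L) L, toM (vf κ K Q x (α x))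
      = K * toM (α x) + toM (α x) * K - toM (α x) * toM (α x) - Q x := by
    intro x hx
    unfold vf
    rw [toM_ofM]
    unfold gf
    rw [hclp x hx]
  -- `2 K - D ≥ 0`
  set B : ℝ → FM N := fun x => ofM (K + K) - α x with hB
  have hBt : ∀ x, toM (B x) = K + K - toM (α x) := by
    intro x; rw [hB]; simp only [map_sub, toM_ofM]
  have hBh : ∀ x ∈ Icc (-L) L, (toM (B x)).IsHermitian := by
    intro x hx
    rw [hBt]
    exact (hKs.1.add hKs.1).sub (hherm x hx)
  have hBd : ∀ x ∈ Icc (-L) L, HasDerivWithinAt B (-(vf κ K Q x (α x))) (Icc (-L) L) x :=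
    fun x hx => (h.deriv x hx).const_sub _
  have hanti : AntitoneOn (fun x => ‖ofM (nn (toM (B x)))‖ ^ 2) (Icc (-L) L) := by
    refine antitoneOn_of_hasDerivWithinAt_nonpos (convex_Icc _ _)
      (f' := fun x => -2 * tp (nn (toM (B x))) (toM (-(vf κ K Q x (α x)))))
      (fun x hx => (hasDerivWithinAt_nn_sq B _ _ x hBh hx (hBd x hx)).continuousWithinAt)
      (fun x hx => ?_) (fun x hx => ?_)
    · rw [interior_Icc] at hx ⊢
      have hx' := Ioo_subset_Icc_self hx
      exact (hasDerivWithinAt_nn_sq B _ _ x hBh hx' (hBd x hx')).mono Ioo_subset_Icc_self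
    · rw [interior_Icc] at hx
      have hx' := Ioo_subset_Icc_self hx
      rw [map_neg, hvf x hx']
      set C := toM (B x) with hC
      have hCh : C.IsHermitian := hBh x hx'
      have eD : toM (α x) = K + K - C := by rw [hC, hBt]; abel
      have e1 : -(K * toM (α x) + toM (α x) * K - toM (α x) * toM (α x) - Q x)
          = C * C + Q x - (K * C + C * K) := by
        rw [eD]; noncomm_ring
      rw [e1, tp_sub_right, tp_add_right, tp_add_right]
      have hnC : nn C * C = - (nn C * nn C) := by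
        conv_lhs => rw [← pp_sub_nn C hCh]
        rw [pp_sub_nn C hCh]
        conv_lhs => rw [← pp_sub_nn C hCh]
        rw [Matrix.mul_sub]
        rw [show nn (pp C - nn C) = nn C by rw [pp_sub_nn C hCh], nn_mul_pp C hCh, zero_sub]
      have hCn : C * nn C = - (nn C * nn C) := by
        have := congrArg Matrix.conjTranspose hnC
        rwa [Matrix.conjTranspose_mul, Matrix.conjTranspose_neg, Matrix.conjTranspose_mul,
          (nn_psd C).1.eq, hCh.eq] at this
      have z1 : tp (nn C) (K * C) = - tp (nn C * nn C) K := by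
        unfold tp
        rw [← Matrix.mul_assoc, Matrix.trace_mul_comm, ← Matrix.mul_assoc, hCn, Matrix.neg_mul,
          Matrix.trace_neg, Complex.neg_re]
      have z2 : tp (nn C) (C * K) = - tp (nn C * nn C) K := by
        unfold tp
        rw [← Matrix.mul_assoc, hnC, Matrix.neg_mul, Matrix.trace_neg, Complex.neg_re]
      have z3 : 0 ≤ tp (nn C) (C * C) := tp_nonneg (nn_psd C) (sq_psd hCh)
      have z4 := tp_nonneg (nn_psd C) (hQ x)
      have z5 := tp_nonneg (sq_psd (nn_psd C).1) hKs
      rw [z1, z2]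
      linarith
  have hCpsd : ∀ x ∈ Icc (-L) L, (K + K - toM (α x)).PosSemidef := by
    intro x hx
    have h0 : ‖ofM (nn (toM (B (-L))))‖ ^ 2 = 0 := by
      rw [hBt, h.init, toM_ofM, sub_self, nn_eq_zero 0 Matrix.PosSemidef.zero, ofM_zero, norm_zero]
      norm_num
    have h1 := hanti (left_mem_Icc.mpr hLL) hx hx.1
    simp only [h0] at h1
    have h2 : ‖ofM (nn (toM (B x)))‖ = 0 := by
      have := sq_nonneg ‖ofM (nn (toM (B x)))‖
      exact pow_eq_zero_iff (two_ne_zero) |>.mp (le_antisymm h1 this)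
    have h3 : nn (toM (B x)) = 0 := by
      have := norm_eq_zero.mp h2
      have h4 := congrArg toM this
      rwa [toM_ofM, map_zero] at h4
    have h5 := psd_of_nn_eq_zero _ (hBh x hx) h3
    rwa [hBt] at h5
  refine ⟨hK, fun x hx => ⟨(hherm x hx).sub hKs.1, ?_, ?_⟩, fun i j => ?_, fun x hx i j => ?_,
    ?_, ?_⟩
  · have : K + (toM (α x) - K) = toM (α x) := by abel
    rw [this]; exact hDpsd x hx
  · have : K - (toM (α x) - K) = K + K - toM (α x) := by abel
    rw [this]; exact hCpsd x hx
  · have : ContinuousOn (fun x => α x (i, j)) (Icc (-L) L) := by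
      have h1 := h.continuousOn
      have h2 : Continuous (fun y : FM N => y (i, j)) := by fun_prop
      exact h2.comp_continuousOn h1
    refine (this.sub (continuousOn_const (c := K i j))).congr (fun x _ => ?_)
    rfl
  · have hx' := Ioo_subset_Icc_self hx
    have h1 : HasDerivAt α (vf κ K Q x (α x)) x :=
      (h.deriv x hx').hasDerivAt (Icc_mem_nhds hx.1 hx.2)
    have h2 : HasDerivAt (fun y => α y (i, j)) ((vf κ K Q x (α x)) (i, j)) x := by
      let pr : FM N →ₗ[ℝ] ℂ :=
        { toFun := fun y => y (i, j), map_add' := fun _ _ => rfl, map_smul' := fun _ _ => rfl }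
      exact ((LinearMap.toContinuousLinearMap pr).hasFDerivAt (x := α x)).comp_hasDerivAt x h1
    have h4 := h2.sub_const (K i j)
    have e : (K * K - (toM (α x) - K) * (toM (α x) - K) - Q x) = toM (vf κ K Q x (α x)) := by
      rw [hvf x hx']; noncomm_ring
    rw [e]
    exact h4
  · show toM (α (-L)) - K = K
    rw [h.init, toM_ofM]; abel
  · show toM (α L) - K = -K
    rw [hend, map_zero, zero_sub]

end Vale.LT2.RowE
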