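import Vale.Agent.H12.LT2Ee
import Vale.Agent.H26.Brouwer

/-!
Row E of P371, part f: eigenvalue facts, continuity of the shooting map.
-/

open MeasureTheory Matrix Set
open scoped ENNReal ComplexOrder MatrixOrder NNReal

namespace Vale.LT2.RowE

variable {N : ℕ}

theorem qf_one (w : Fin N → ℂ) : qf w 1 = ∑ i, ‖w i‖ ^ 2 := by
  unfold qf
  rw [Matrix.one_mulVec, dotProduct, Complex.re_sum]
  refine Finset.sum_congr rfl fun i _ => ?_
  rw [← Complex.normSq_eq_norm_sq]
  simp [Complex.normSq_apply]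

/-- top eigenpair -/
theorem exists_top [Nonempty (Fin N)] (K : Mat N) (hK : K.PosSemidef) :
    ∃ (k : ℝ) (w : Fin N → ℂ), 0 ≤ k ∧ qf w 1 = 1 ∧ K.mulVec w = (k : ℂ) • w ∧
      (k • 1 - K).PosSemidef := by
  obtain ⟨j, hj⟩ := Finite.exists_max hK.1.eigenvalues
  refine ⟨hK.1.eigenvalues j, ⇑(hK.1.eigenvectorBasis j), hK.eigenvalues_nonneg j, ?_, ?_, ?_⟩
  · rw [qf_one]
    have h := hK.1.eigenvectorBasis.orthonormal.1 j
    rw [← EuclideanSpace.norm_sq_eq, h]
    norm_num
  · rw [hK.1.mulVec_eigenvectorBasis j]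
    rfl
  · rw [smul_sub_cfc _ K hK.1]
    refine cfc_psd _ _ (fun t ht => ?_)
    rw [hK.1.spectrum_real_eq_range_eigenvalues] at ht
    obtain ⟨i, rfl⟩ := ht
    have := hj i
    linarith

theorem top_le_norm {K : Mat N} {k : ℝ} {w : Fin N → ℂ} (hk : 0 ≤ k) (hw1 : qf w 1 = 1)
    (hw : K.mulVec w = (k : ℂ) • w) : k ≤ ‖ofM K‖ := by
  have e : K * vecMulVec w (star w) = k • vecMulVec w (star w) := by
    rw [Matrix.mul_vecMulVec, hw, Matrix.smul_vecMulVec]
    rfl
  have h := fnorm_mul K (vecMulVec w (star w))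
  rw [e, ofM_smul, norm_smul, Real.norm_eq_abs, abs_of_nonneg hk] at h
  have hpos : 0 < ‖ofM (vecMulVec w (star w))‖ := by
    rw [norm_pos_iff]
    intro h0
    have h1 := congrArg toM h0
    rw [toM_ofM, map_zero] at h1
    have h2 : qf w (vecMulVec w (star w)) = qf w (0 : Mat N) := by rw [h1]
    have h3 : qf w (vecMulVec w (star w)) = 1 := by
      unfold qf
      rw [Matrix.vecMulVec_mulVec]
      have h4 : star w ⬝ᵥ w = 1 := by
        have h5 : (star w ⬝ᵥ w).re = 1 := by
          have := hw1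
          unfold qf at this
          rwa [Matrix.one_mulVec] at this
        have h6 : (star w ⬝ᵥ w).im = 0 := by
          rw [dotProduct, Complex.im_sum]
          refine Finset.sum_eq_zero fun i _ => ?_
          simp only [Pi.star_apply, RCLike.star_def, Complex.mul_im, Complex.conj_re,
            Complex.conj_im]
          ring
        exact Complex.ext (by simpa using h5) (by simpa using h6)
      rw [h4]
      simp [h4]
    rw [h3] at h2
    have h7 : qf w (0 : Mat N) = 0 := by unfold qf; simp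
    rw [h7] at h2
    exact one_ne_zero h2
  exact le_of_mul_le_mul_right h hpos

theorem norm_le_top {K : Mat N} {k : ℝ} (hk : 0 ≤ k) (hK : K.PosSemidef)
    (hkK : (k • 1 - K).PosSemidef) : ‖ofM K‖ ≤ N * k := by
  have h1 := tp_nonneg hK hkK
  have h2 := tp_nonneg hkK (Matrix.PosSemidef.one (n := Fin N) (R := ℂ))
  rw [tp_sub_right, tp_smul_right] at h1
  rw [tp_sub_left, tp_smul_left] at h2
  have h3 : tp (1 : Mat N) 1 = N := by
    unfold tp
    rw [Matrix.one_mul, Matrix.trace_one]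
    simp
  rw [h3] at h2
  have h4 : ‖ofM K‖ ^ 2 ≤ (N * k) ^ 2 := by
    rw [norm_sq_tp hK.1]
    have h5 : tp K K ≤ k * (k * N) := by nlinarith
    have h6 : (N : ℝ) ≤ N ^ 2 := by
      rcases Nat.eq_zero_or_pos N with h | h
      · subst h; norm_num
      · have : (1 : ℝ) ≤ N := by exact_mod_cast h
        nlinarith
    calc tp K K ≤ k * (k * N) := h5
      _ = k ^ 2 * N := by ring
      _ ≤ k ^ 2 * N ^ 2 := mul_le_mul_of_nonneg_left h6 (sq_nonneg k)
      _ = (N * k) ^ 2 := by ring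
  exact le_of_sq_le_sq h4 (by positivity)

theorem exists_k (K : Mat N) (hK : K.PosSemidef) :
    ∃ k : ℝ, 0 ≤ k ∧ (k • 1 - K).PosSemidef ∧ k ≤ ‖ofM K‖ := by
  rcases isEmpty_or_nonempty (Fin N) with h | h
  · refine ⟨0, le_rfl, ?_, norm_nonneg _⟩
    have : (0 : ℝ) • (1 : Mat N) - K = 0 := by
      ext i; exact (h.false i).elim
    rw [this]; exact Matrix.PosSemidef.zero
  · obtain ⟨k, w, h1, h2, h3, h4⟩ := exists_top K hK
    exact ⟨k, h1, h4, top_le_norm h1 h2 h3⟩

theorem norm_entries (A : Mat N) (C : ℝ) (hC : ∀ i j, ‖A i j‖ ≤ C) : ‖ofM A‖ ≤ N * |C| := by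
  have h4 : ‖ofM A‖ ^ 2 ≤ (N * |C|) ^ 2 := by
    rw [fnorm_sq]
    calc ∑ i, ∑ j, ‖A i j‖ ^ 2 ≤ ∑ _i : Fin N, ∑ _j : Fin N, |C| ^ 2 := by
          refine Finset.sum_le_sum fun i _ => Finset.sum_le_sum fun j _ => ?_
          exact pow_le_pow_left₀ (norm_nonneg _) ((hC i j).trans (le_abs_self C)) 2
      _ = (N * |C|) ^ 2 := by
          simp only [Finset.sum_const, Finset.card_univ, Fintype.card_fin, nsmul_eq_mul]
          ring
  exact le_of_sq_le_sq h4 (by positivity)

theorem qf_entries (A : Mat N) (C : ℝ) (hC : ∀ i j, ‖A i j‖ ≤ C) (w : Fin N → ℂ)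
    (hw : qf w 1 = 1) : qf w A ≤ N * (N * |C|) := by
  have hwi : ∀ i, ‖w i‖ ≤ 1 := by
    intro i
    rw [qf_one] at hw
    have h1 : ‖w i‖ ^ 2 ≤ 1 := by
      rw [← hw]
      exact Finset.single_le_sum (f := fun i => ‖w i‖ ^ 2) (fun j _ => sq_nonneg _)
        (Finset.mem_univ i)
    exact (sq_le_one_iff₀ (norm_nonneg _)).mp h1
  unfold qf
  refine (Complex.re_le_norm _).trans ?_
  rw [dotProduct]
  refine (norm_sum_le _ _).trans ?_
  calc ∑ i, ‖star w i * (A.mulVec w) i‖ ≤ ∑ _i : Fin N, (N * |C|) := by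
        refine Finset.sum_le_sum fun i _ => ?_
        rw [norm_mul, Pi.star_apply, norm_star]
        have h1 : ‖(A.mulVec w) i‖ ≤ N * |C| := by
          rw [Matrix.mulVec, dotProduct]
          refine (norm_sum_le _ _).trans ?_
          calc ∑ j, ‖A i j * w j‖ ≤ ∑ _j : Fin N, |C| := by
                refine Finset.sum_le_sum fun j _ => ?_
                rw [norm_mul]
                calc ‖A i j‖ * ‖w j‖ ≤ |C| * 1 :=
                      mul_le_mul ((hC i j).trans (le_abs_self C)) (hwi j) (norm_nonneg _)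
                        (abs_nonneg _)
                  _ = |C| := mul_one _
            _ = N * |C| := by simp
        calc ‖w i‖ * ‖(A.mulVec w) i‖ ≤ 1 * (N * |C|) :=
              mul_le_mul (hwi i) h1 (norm_nonneg _) zero_le_one
          _ = N * |C| := one_mul _
    _ = N * (N * |C|) := by simp

theorem continuous_ofM : Continuous (ofM : Mat N → FM N) := by
  have h : Continuous fun A : Mat N => (fun p : Fin N × Fin N => A p.1 p.2) := by
    fun_prop
  exact (PiLp.continuous_toLp 2 (fun _ : Fin N × Fin N => ℂ)).comp h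

theorem continuous_toM : Continuous (toM : FM N → Mat N) := by
  refine continuous_matrix fun i j => ?_
  show Continuous fun x : FM N => x (i, j)
  fun_prop

theorem mem_ah (x : FM N) : x ∈ LinearMap.ker (ah (N := N)) ↔ (toM x).IsHermitian := by
  rw [LinearMap.mem_ker]
  show ofM (toM x - (toM x)ᴴ) = 0 ↔ _
  constructor
  · intro h
    have h6 := congrArg toM h
    rw [toM_ofM, map_zero] at h6
    exact (sub_eq_zero.mp h6).symm
  · intro h
    rw [h.eq, sub_self, ofM_zero]

/-- the domain of the shooting map -/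
def Bs (N : ℕ) (R : ℝ) : Set (FM N) :=
  {x | (toM x).IsHermitian ∧ ‖x‖ ≤ R}

theorem Bs_eq (R : ℝ) : Bs N R = (LinearMap.ker (ah (N := N)) : Set (FM N)) ∩ Metric.closedBall 0 R := by
  ext x
  simp only [Bs, mem_ofPred_eq, mem_inter_iff, SetLike.mem_coe, mem_ah, mem_closedBall_zero_iff]

theorem Bs_compact (R : ℝ) : IsCompact (Bs N R) := by
  rw [Bs_eq]
  exact (isCompact_closedBall 0 R).inter_left (Submodule.closed_of_finiteDimensional _)

theorem Bs_convex (R : ℝ) : Convex ℝ (Bs N R) := by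
  rw [Bs_eq]
  exact (Submodule.convex _).inter (convex_closedBall 0 R)

theorem cont_pp (R : ℝ) : ContinuousOn (fun x : FM N => ofM (pp (toM x))) (Bs N R) := by
  have : LipschitzOnWith 1 (fun x : FM N => ofM (pp (toM x))) (Bs N R) := by
    refine LipschitzOnWith.of_dist_le_mul fun x hx y hy => ?_
    rw [dist_eq_norm, dist_eq_norm, ← ofM_sub, NNReal.coe_one, one_mul]
    have h := pp_lip (toM x) (toM y) hx.1 hy.1
    rwa [ofM_sub (toM x), ofM_toM, ofM_toM] at h
  exact this.continuousOn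

theorem cont_nn (R : ℝ) : ContinuousOn (fun x : FM N => ofM (nn (toM x))) (Bs N R) := by
  have : LipschitzOnWith 1 (fun x : FM N => ofM (nn (toM x))) (Bs N R) := by
    refine LipschitzOnWith.of_dist_le_mul fun x hx y hy => ?_
    rw [dist_eq_norm, dist_eq_norm, ← ofM_sub, NNReal.coe_one, one_mul]
    have h := nn_lip (toM x) (toM y) hx.1 hy.1
    rwa [ofM_sub (toM x), ofM_toM, ofM_toM] at h
  exact this.continuousOn

theorem gronwall_mono (δ δ' c ε ε' X : ℝ) (hc : 0 ≤ c) (hX : 0 ≤ X) (h1 : δ ≤ δ') (h2 : ε ≤ ε') :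
    gronwallBound δ c ε X ≤ gronwallBound δ' c ε' X := by
  rcases eq_or_lt_of_le hc with h | h
  · subst h
    rw [gronwallBound_K0, gronwallBound_K0]
    simp only
    nlinarith [mul_le_mul_of_nonneg_right h2 hX]
  · rw [gronwallBound_of_K_ne_0 h.ne', gronwallBound_of_K_ne_0 h.ne']
    simp only
    have h3 : 0 ≤ Real.exp (c * X) - 1 := by
      have := Real.one_le_exp (mul_nonneg hc hX)
      linarith
    have h4 := Real.exp_pos (c * X)
    have h5 : ε / c ≤ ε' / c := div_le_div_of_nonneg_right h2 hc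
    nlinarith [mul_le_mul_of_nonneg_right h1 h4.le, mul_le_mul_of_nonneg_right h5 h3]

theorem gronwall_cont (c c2 X : ℝ) :
    Continuous fun η : ℝ => gronwallBound (2 * η) c (0 + (2 * η * c2 + η)) X := by
  by_cases h : c = 0
  · subst h
    simp only [gronwallBound_K0]
    fun_prop
  · simp only [gronwallBound_of_K_ne_0 h]
    fun_prop

/-- continuity of the shooting map -/
theorem shoot_cont (L : ℝ) (hL : 0 < L) (Q : Mat N → ℝ → Mat N)
    (hQc : ContinuousOn (fun z : Mat N × ℝ => Q z.1 z.2) ({K | K.PosSemidef} ×ˢ univ))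
    (κ R : ℝ) (α : FM N → ℝ → FM N)
    (hα : ∀ x, Sol L κ (pp (toM x)) (Q (pp (toM x))) (α x)) :
    ContinuousOn (fun x => α x L) (Bs N R) := by
  intro x hx
  rw [Metric.continuousWithinAt_iff]
  intro ε hε
  set c1 := 4 * ‖ofM (pp (toM x))‖ + 4 * ‖ofM (κ • (1 : Mat N))‖ with hc1
  set c2 := ‖ofM (κ • (1 : Mat N))‖ with hc2
  -- choose `η`
  have h1 : ∃ η > 0, gronwallBound (2 * η) c1 (0 + (2 * η * c2 + η)) (L - -L) < ε := by
    have h2 := (gronwall_cont c1 c2 (L - -L)).tendsto 0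
    simp only [mul_zero, zero_mul, add_zero, gronwallBound_ε0_δ0] at h2
    have h3 := h2.eventually (gt_mem_nhds hε)
    rw [Metric.eventually_nhds_iff] at h3
    obtain ⟨r, hr, hr2⟩ := h3
    refine ⟨r / 2, by positivity, hr2 ?_⟩
    rw [Real.dist_eq, sub_zero, abs_of_pos (by positivity)]
    linarith
  obtain ⟨η, hη, hη2⟩ := h1
  -- uniform continuity of `Q`
  have hG : ContinuousOn (fun z : FM N × ℝ => ofM (Q (pp (toM z.1)) z.2))
      (Bs N R ×ˢ Icc (-L) L) := by
    refine continuous_ofM.comp_continuousOn ?_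
    refine hQc.comp (f := fun z : FM N × ℝ => (pp (toM z.1), z.2)) ?_ ?_
    · refine ContinuousOn.prodMk ?_ continuousOn_snd
      have h4 := (cont_pp (N := N) R).comp (continuousOn_fst (s := Bs N R ×ˢ Icc (-L) L))
        (fun z hz => hz.1)
      have h5 := continuous_toM.comp_continuousOn h4
      refine h5.congr (fun z _ => ?_)
      simp
    · intro z _
      exact ⟨pp_psd _, mem_univ _⟩
  have hGu := ((Bs_compact (N := N) R).prod isCompact_Icc).uniformContinuousOn_of_continuous hG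
  rw [Metric.uniformContinuousOn_iff] at hGu
  obtain ⟨δ, hδ, hδ2⟩ := hGu η hη
  refine ⟨min δ η, lt_min hδ hη, fun y hy hyx => ?_⟩
  have hd1 : dist y x < δ := hyx.trans_le (min_le_left _ _)
  have hd2 : dist y x < η := hyx.trans_le (min_le_right _ _)
  have hKK : ‖ofM (pp (toM x) - pp (toM y))‖ ≤ η := by
    have h := pp_lip (toM x) (toM y) hx.1 hy.1
    rw [ofM_sub (toM x), ofM_toM, ofM_toM] at h
    rw [dist_eq_norm, norm_sub_rev] at hd2
    exact h.trans hd2.le
  have hQQ : ∀ t ∈ Icc (-L) L, ‖ofM (Q (pp (toM y)) t - Q (pp (toM x)) t)‖ ≤ η := by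
    intro t ht
    have h := hδ2 (y, t) ⟨hy, ht⟩ (x, t) ⟨hx, ht⟩ (by
      rw [Prod.dist_eq]; simpa using hd1)
    rw [dist_eq_norm, ← ofM_sub] at h
    exact h.le
  have key := (hα x).dist_le (hα y) η hQQ L ⟨by linarith, le_rfl⟩
  rw [dist_eq_norm, norm_sub_rev]
  refine lt_of_le_of_lt key (lt_of_le_of_lt ?_ hη2)
  refine gronwall_mono _ _ _ _ _ _ (by positivity) (by linarith) (by linarith) ?_
  have := mul_le_mul_of_nonneg_right hKK (norm_nonneg (ofM (κ • (1 : Mat N))))
  linarith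

end Vale.LT2.RowE
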